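import Vale.Agent.P240.R2.H145.EO1

/-!
The interface for the automorphisms of `PΩ^±_n(q)`, `n` even: the map on the unit vectors (up to
sign), for the form `diag(a)`.
-/

set_option autoImplicit false

namespace Vale.Agent.P240.R2.H145.EO

open Matrix

universe u v

section defs

variable {K : Type u} [Field K] {n : ℕ}

/-- the kernel consists of the scalars -/
def Ker {G : Type v} [Group G] {S : Subgroup (GL (Fin n) K)} (ε : S →* G) : Prop :=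
  ∀ g : S, ε g = 1 ↔ ∃ l : K, g.1.1 = l • (1 : Matrix (Fin n) (Fin n) K)

/-- `z` is `y` or `-y` -/
def PM (y z : Fin n → K) : Prop := z = y ∨ z = -y

/-- the map on the unit vectors, up to signs -/
structure FE {G : Type v} [Group G] (a : Fin n → K) {S : Subgroup (GL (Fin n) K)} (ε : S →* G)
    (x : G) (f : (Fin n → K) → Fin n → K) (τ : S → S) : Prop where
  tau : ∀ g, x * ε g * x⁻¹ = ε (τ g)
  unit : ∀ y, B a y y = 1 → B a (f y) (f y) = 1
  sgn : ∀ y z, B a y y = 1 → PM y z → PM (f y) (f z)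
  equi : ∀ (g : S) (y : Fin n → K), B a y y = 1 → PM (ac (τ g).1 (f y)) (f (ac g.1 y))
  inj : ∀ y z, B a y y = 1 → B a z z = 1 → PM (f y) (f z) → PM y z
  orth : ∀ y z, B a y y = 1 → B a z z = 1 → (B a (f y) (f z) = 0 ↔ B a y z = 0)
  one : ∀ y z, B a y y = 1 → B a z z = 1 → (B a (f y) (f z) ^ 2 = 1 ↔ B a y z ^ 2 = 1)
  base : ∀ i : Fin n, i.val + 1 < n → PM (Pi.single i 1) (f (Pi.single i 1))

/-- **EO-F** (owner 145): existence of the map. `e i j` is `r_i r_j`, `i ≠ j < n - 1` -/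
def StmtEOF : Prop :=
  ∀ (K : Type u) [Field K] [Fintype K], (2 : K) ≠ 0 → 5 < Fintype.card K → ∀ (n : ℕ), 6 ≤ n →
    ∀ (a : Fin n → K), (∀ i, a i ≠ 0) → (∀ i : Fin n, i.val + 1 < n → a i = 1) →
    ∀ (S : Subgroup (GL (Fin n) K)), Big a S → S ≤ OD a →
    ∀ (G : Type v) [Group G] (ε : S →* G), Ker ε → ∀ x : G,
    (∀ g, ∃ g', x * ε g * x⁻¹ = ε g') →
    (∀ (i j : Fin n) (s : S), i.val + 1 < n → j.val + 1 < n → i ≠ j →
      (∀ y, ac s.1 y = fun k => if k = i ∨ k = j then -y k else y k) → x * ε s = ε s * x) →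
    ∃ f τ, FE a ε x f τ

/-- **EO-W** (owner 472): Wigner's theorem for the form `diag(a)` -/
def StmtEOW : Prop :=
  ∀ (K : Type u) [Field K] [Fintype K], (2 : K) ≠ 0 → 5 < Fintype.card K → ∀ (n : ℕ), 6 ≤ n →
    ∀ (a : Fin n → K), (∀ i, a i ≠ 0) → (∀ i : Fin n, i.val + 1 < n → a i = 1) →
    ∀ (f : (Fin n → K) → Fin n → K) (κ : K → K),
    (∀ y, B a y y = 1 → B a (f y) (f y) = 1) →
    (∀ y z, B a y y = 1 → B a z z = 1 → B a (f y) (f z) ^ 2 = κ (B a y z ^ 2)) →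
    (∀ i : Fin n, i.val + 1 < n → PM (Pi.single i 1) (f (Pi.single i 1))) →
    ∃ (σ : K ≃+* K) (c : Fin n → K), (∀ i, c i ^ 2 * a i = σ (a i)) ∧
      ∀ y, B a y y = 1 → PM (fun i => c i * σ (y i)) (f y)

/-- **EO-S** (owner 651): from the map to the semilinear map -/
def StmtEOS : Prop :=
  ∀ (K : Type u) [Field K] [Fintype K], (2 : K) ≠ 0 → 5 < Fintype.card K → ∀ (n : ℕ), 6 ≤ n →
    ∀ (a : Fin n → K), (∀ i, a i ≠ 0) → (∀ i : Fin n, i.val + 1 < n → a i = 1) →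
    ∀ (S : Subgroup (GL (Fin n) K)), Big a S → S ≤ OD a →
    ∀ (G : Type v) [Group G] (ε : S →* G), Ker ε → ∀ (x : G) (f : (Fin n → K) → Fin n → K)
      (τ : S → S), FE a ε x f τ →
    ∃ (σ : K ≃+* K) (c : Fin n → K), (∀ i, c i ^ 2 * a i = σ (a i)) ∧
      ∀ g g' : S, (∀ i j, g'.1.1 i j * c j = c i * σ (g.1.1 i j)) → x * ε g * x⁻¹ = ε g'

/-- **EO-SEM**: the result -/
def StmtEO : Prop :=
  ∀ (K : Type u) [Field K] [Fintype K], (2 : K) ≠ 0 → 5 < Fintype.card K → ∀ (n : ℕ), 6 ≤ n →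
    ∀ (a : Fin n → K), (∀ i, a i ≠ 0) → (∀ i : Fin n, i.val + 1 < n → a i = 1) →
    ∀ (S : Subgroup (GL (Fin n) K)), Big a S → S ≤ OD a →
    ∀ (G : Type v) [Group G] (ε : S →* G), Ker ε → ∀ x : G,
    (∀ g, ∃ g', x * ε g * x⁻¹ = ε g') →
    (∀ (i j : Fin n) (s : S), i.val + 1 < n → j.val + 1 < n → i ≠ j →
      (∀ y, ac s.1 y = fun k => if k = i ∨ k = j then -y k else y k) → x * ε s = ε s * x) →
    ∃ (σ : K ≃+* K) (c : Fin n → K), (∀ i, c i ^ 2 * a i = σ (a i)) ∧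
      ∀ g g' : S, (∀ i j, g'.1.1 i j * c j = c i * σ (g.1.1 i j)) → x * ε g * x⁻¹ = ε g'

theorem stmtEO_of (hF : StmtEOF.{u, v}) (hS : StmtEOS.{u, v}) : StmtEO.{u, v} := by
  intro K _ _ h2 h5 n hn a ha ha1 S hB hO G _ ε hk x hx hc
  obtain ⟨f, τ, hf⟩ := hF K h2 h5 n hn a ha ha1 S hB hO G ε hk x hx hc
  exact hS K h2 h5 n hn a ha ha1 S hB hO G ε hk x f τ hf

end defs

end Vale.Agent.P240.R2.H145.EO
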