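import Vale.Agent.P240.R2.H145.EO7
import Vale.Agent.P240.R2.H275.EOS

/-!
`StmtEO`: automorphisms of `PΩ^±_n(q)`, `n ≥ 6` even, that centralize the products of the reflections
of an orthonormal `n - 1`-frame are semilinear and diagonal.
-/

set_option autoImplicit false

namespace Vale.Agent.P240.R2.H145.EO

open Matrix
open Vale.Agent.P240.R2.H275 (PM_sq2 tp scal)

universe u v

/-- **EO-S** (proof of helper275, with Wigner's theorem of helper472 in the form `wig`) -/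
theorem stmtEOS : StmtEOS.{u, v} := by
  intro K _ _ h2 h5 n hn a ha ha1 S hB hO G _ ε hk x f τ hf
  have hpair : ∀ y z y' z', B a y y = 1 → B a z z = 1 → B a y' y' = 1 → B a z' z' = 1 →
      B a y z ^ 2 = B a y' z' ^ 2 → B a (f y) (f z) ^ 2 = B a (f y') (f z') ^ 2 := by
    intro y z y' z' hy hz hy' hz' h
    by_cases h1 : B a y z ^ 2 = 1
    · rw [(hf.one y z hy hz).2 h1, (hf.one y' z' hy' hz').2 (h ▸ h1)]
    obtain ⟨g, hg, hg1, hg2⟩ := tp h2 ha ha1 hB hO (by omega) hy hz hy' hz' h h1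
    have hgO := hO hg
    have e1 : PM (ac (τ ⟨g, hg⟩).1 (f y)) (f y') :=
      H275.PM.tr (hf.equi ⟨g, hg⟩ y hy) (hf.sgn _ _ (by rw [OD_B hgO, hy]) (H275.PM.sm hg1))
    have e2 : PM (ac (τ ⟨g, hg⟩).1 (f z)) (f z') :=
      H275.PM.tr (hf.equi ⟨g, hg⟩ z hz) (hf.sgn _ _ (by rw [OD_B hgO, hz]) (H275.PM.sm hg2))
    have e3 := PM_sq2 (a := a) e1 e2
    rw [OD_B (hO (τ ⟨g, hg⟩).2)] at e3
    exact e3.symm
  classical
  let κ : K → K := fun t =>
    if h : ∃ p : (Fin n → K) × (Fin n → K), B a p.1 p.1 = 1 ∧ B a p.2 p.2 = 1 ∧ B a p.1 p.2 ^ 2 = t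
    then B a (f h.choose.1) (f h.choose.2) ^ 2 else 0
  have hκ : ∀ y z, B a y y = 1 → B a z z = 1 → B a (f y) (f z) ^ 2 = κ (B a y z ^ 2) := by
    intro y z hy hz
    have hex : ∃ p : (Fin n → K) × (Fin n → K), B a p.1 p.1 = 1 ∧ B a p.2 p.2 = 1 ∧
        B a p.1 p.2 ^ 2 = B a y z ^ 2 := ⟨(y, z), hy, hz, rfl⟩
    show _ = dite _ _ _
    rw [dif_pos hex]
    obtain ⟨h3, h4, h6⟩ := hex.choose_spec
    exact hpair _ _ _ _ hy hz h3 h4 h6.symm
  obtain ⟨σ, c, hc, hfc⟩ := wig h2 h5 hn ha ha1 hf.unit hκ hf.base (fun y i hy hi h => by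
    have h3 := hf.inj y (e i) hy (by rw [e, B_e ha1 hi, Pi.single_eq_same])
      (h.symm.trans (hf.base i hi))
    exact h3.symm)
  refine ⟨σ, c, hc, fun g g' hgg => ?_⟩
  have hc0 : ∀ i, c i ≠ 0 := by
    intro i h3
    have h4 := hc i
    rw [h3, zero_pow two_ne_zero, zero_mul] at h4
    exact (map_ne_zero σ).2 (ha i) h4.symm
  -- the semilinear map
  let C : (Fin n → K) → Fin n → K := fun y i => c i * σ (y i)
  have hCB : ∀ y z, B a (C y) (C z) = σ (B a y z) := by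
    intro y z
    show ∑ i, a i * (c i * σ (y i)) * (c i * σ (z i)) = σ (∑ i, a i * y i * z i)
    rw [map_sum]
    refine Finset.sum_congr rfl fun i _ => ?_
    rw [map_mul, map_mul, ← hc i]
    ring
  have hCg : ∀ y, C (ac g.1 y) = ac g'.1 (C y) := by
    intro y
    funext i
    show c i * σ (∑ j, g.1.1 i j * y j) = ∑ j, g'.1.1 i j * (c j * σ (y j))
    rw [map_sum, Finset.mul_sum]
    refine Finset.sum_congr rfl fun j _ => ?_
    rw [map_mul, ← mul_assoc, ← hgg i j]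
    ring
  have hCneg : ∀ y, C (-y) = -C y := by
    intro y
    funext i
    show c i * σ (-y i) = -(c i * σ (y i))
    rw [map_neg]; ring
  have hCPM : ∀ y z, PM y z → PM (C y) (C z) := by
    intro y z h
    rcases h with rfl | rfl
    · exact Or.inl rfl
    · exact Or.inr (hCneg _)
  have hCsurj : ∀ w, ∃ y, C y = w := by
    intro w
    refine ⟨fun i => σ.symm ((c i)⁻¹ * w i), ?_⟩
    funext i
    show c i * σ (σ.symm ((c i)⁻¹ * w i)) = w i
    rw [RingEquiv.apply_symm_apply, mul_inv_cancel_left₀ (hc0 i)]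
  -- compare `τ g` and `g'`
  have hcmp : ∀ w, B a w w = 1 → PM w (ac ((g'.1)⁻¹ * (τ g).1) w) := by
    intro w hw
    obtain ⟨y, rfl⟩ := hCsurj w
    have hy : B a y y = 1 := by
      rw [hCB] at hw
      exact σ.injective (by rw [hw, map_one])
    have hgy : B a (ac g.1 y) (ac g.1 y) = 1 := by rw [OD_B (hO g.2), hy]
    have e1 : PM (C y) (f y) := hfc y hy
    have e2 : PM (C (ac g.1 y)) (f (ac g.1 y)) := hfc _ hgy
    have e3 := hf.equi g y hy
    have e4 : PM (ac (τ g).1 (C y)) (ac g'.1 (C y)) := by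
      have h6 : PM (ac (τ g).1 (C y)) (f (ac g.1 y)) := H275.PM.tr (H275.PM.ac (τ g).1 e1) e3
      have h7 := H275.PM.tr h6 (H275.PM.sm e2)
      rw [hCg] at h7
      exact h7
    have e5 := H275.PM.ac (g'.1)⁻¹ (H275.PM.sm e4)
    rw [ac_inv, ← ac_mul] at e5
    exact e5
  obtain ⟨l, hl⟩ := scal h2 h5 (by omega) ha ha1 (mul_mem (inv_mem (hO g'.2)) (hO (τ g).2)) hcmp
  have hl1 : (g'.1)⁻¹ * (τ g).1 = (g'⁻¹ * τ g : S).1 := rfl
  have hmat : (g'⁻¹ * τ g : S).1.1 = l • (1 : Matrix (Fin n) (Fin n) K) := by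
    apply Matrix.ext_of_mulVec_single
    intro i
    rw [smul_mulVec, one_mulVec]
    exact hl _
  have h1 := (hk (g'⁻¹ * τ g)).2 ⟨l, hmat⟩
  rw [map_mul, map_inv, inv_mul_eq_one] at h1
  rw [hf.tau, h1]

/-- **EO-SEM** -/
theorem stmtEO : StmtEO.{u, v} := stmtEO_of stmtEOF stmtEOS

end Vale.Agent.P240.R2.H145.EO
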