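import Vale.Agent.P240.R2.H296.StmtsO
import Vale.Agent.P240.R2.H221.B3
import Vale.Agent.P240.R2.H281.H90b

/-!
**O6a** (row of helper296 and helper472): `Ω_n(q)` is transitive on the pairs of letters with the
same angle. All the elements used are products of pairs `r_u r_v` of reflections with
`u · u = v · v`; these are commutators in `O_n(q)`.
-/

set_option autoImplicit false

namespace Vale.Agent.P240.R2.H145

open Matrix Vale.Agent.P240.R2.AS Vale.Agent.P240.R2.H221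
open scoped commutatorElement

universe u

section refl

variable {K : Type u} [Field K] [StarRing K] {n : ℕ}

lemma star_eq (hs : ∀ x : K, star x = x) (A : Matrix (Fin n) (Fin n) K) : star A = Aᵀ := by
  ext i j
  rw [star_apply, transpose_apply, hs]

lemma dot_map (hs : ∀ x : K, star x = x) (g : GU K n) (x y : Fin n → K) :
    ((g : Matrix (Fin n) (Fin n) K) *ᵥ x) ⬝ᵥ ((g : Matrix (Fin n) (Fin n) K) *ᵥ y) = x ⬝ᵥ y := by
  have h1 : (g : Matrix (Fin n) (Fin n) K)ᵀ * g = 1 := by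
    rw [← star_eq hs]; exact mem_unitaryGroup_iff'.1 g.2
  rw [← vecMul_transpose (g : Matrix (Fin n) (Fin n) K) x, ← dotProduct_mulVec, mulVec_mulVec, h1,
    one_mulVec]

omit [StarRing K] in
/-- one of `u - v`, `u + v` is not isotropic -/
lemma exists_pm (h2 : (2 : K) ≠ 0) {u v : Fin n → K} (hu : u ⬝ᵥ u ≠ 0)
    (huv : u ⬝ᵥ u = v ⬝ᵥ v) :
    (u - v) ⬝ᵥ (u - v) ≠ 0 ∨ (u + v) ⬝ᵥ (u + v) ≠ 0 := by
  by_contra h
  push Not at h
  obtain ⟨h3, h4⟩ := h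
  have hc : v ⬝ᵥ u = u ⬝ᵥ v := dotProduct_comm _ _
  rw [sub_dotProduct, dotProduct_sub, dotProduct_sub, hc] at h3
  rw [add_dotProduct, dotProduct_add, dotProduct_add, hc] at h4
  have h5 : (2 : K) * 2 * (u ⬝ᵥ u) = 0 := by linear_combination h3 + h4 + 2 * huv
  exact mul_ne_zero (mul_ne_zero h2 h2) hu h5

lemma rf_sub (hs : ∀ x : K, star x = x) {u v : Fin n → K} (huv : u ⬝ᵥ u = v ⬝ᵥ v)
    (h : (u - v) ⬝ᵥ (u - v) ≠ 0) :
    (rf hs (u - v) h : Matrix (Fin n) (Fin n) K) *ᵥ u = v := by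
  have h3 : 2 * ((u - v) ⬝ᵥ u) = (u - v) ⬝ᵥ (u - v) := by
    rw [sub_dotProduct, sub_dotProduct, dotProduct_sub, dotProduct_sub, dotProduct_comm v u]
    linear_combination huv
  rw [rf_mulVec, h3, div_self h, one_smul]; abel

lemma rf_add (hs : ∀ x : K, star x = x) {u v : Fin n → K} (huv : u ⬝ᵥ u = v ⬝ᵥ v)
    (h : (u + v) ⬝ᵥ (u + v) ≠ 0) :
    (rf hs (u + v) h : Matrix (Fin n) (Fin n) K) *ᵥ u = -v := by
  have h3 : 2 * ((u + v) ⬝ᵥ u) = (u + v) ⬝ᵥ (u + v) := by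
    rw [add_dotProduct, add_dotProduct, dotProduct_add, dotProduct_add, dotProduct_comm v u]
    linear_combination huv
  rw [rf_mulVec, h3, div_self h, one_smul]; abel

lemma rf_fix (hs : ∀ x : K, star x = x) {v x : Fin n → K} (hv : v ⬝ᵥ v ≠ 0) (h : v ⬝ᵥ x = 0) :
    (rf hs v hv : Matrix (Fin n) (Fin n) K) *ᵥ x = x := by
  rw [rf_mulVec, h, mul_zero, zero_div, zero_smul, sub_zero]

lemma rf_inv (hs : ∀ x : K, star x = x) (v : Fin n → K) (hv : v ⬝ᵥ v ≠ 0) :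
    (rf hs v hv)⁻¹ = rf hs v hv := by
  apply Subtype.ext
  show star (1 - (2 / (v ⬝ᵥ v)) • vecMulVec v v) = 1 - (2 / (v ⬝ᵥ v)) • vecMulVec v v
  ext i j
  rw [star_apply, Matrix.sub_apply, Matrix.sub_apply, Matrix.smul_apply, Matrix.smul_apply,
    vecMulVec_apply, vecMulVec_apply, hs, smul_eq_mul, smul_eq_mul, mul_comm (v j), one_apply,
    one_apply]
  simp [eq_comm]

lemma conj_rf (hs : ∀ x : K, star x = x) {u v : Fin n → K} (hu : u ⬝ᵥ u ≠ 0) (hv : v ⬝ᵥ v ≠ 0)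
    (huv : u ⬝ᵥ u = v ⬝ᵥ v) (g : GU K n)
    (h : (g : Matrix (Fin n) (Fin n) K) *ᵥ u = v ∨ (g : Matrix (Fin n) (Fin n) K) *ᵥ u = -v) :
    g * rf hs u hu * g⁻¹ = rf hs v hv := by
  apply Subtype.ext
  show (g : Matrix (Fin n) (Fin n) K) * (1 - (2 / (u ⬝ᵥ u)) • vecMulVec u u) *
    star (g : Matrix (Fin n) (Fin n) K) = 1 - (2 / (v ⬝ᵥ v)) • vecMulVec v v
  rw [mul_sub, sub_mul, mul_one, mem_unitaryGroup_iff.1 g.2, mul_smul_comm, smul_mul_assoc,
    mul_vecMulVec, vecMulVec_mul, star_eq hs, vecMul_transpose, huv]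
  rcases h with h | h
  · rw [h]
  · rw [h, neg_vecMulVec, vecMulVec_neg, neg_neg]

/-- vectors of the same norm are conjugate up to sign -/
lemma exists_rf' (hs : ∀ x : K, star x = x) (h2 : (2 : K) ≠ 0) {u v : Fin n → K}
    (hu : u ⬝ᵥ u ≠ 0) (huv : u ⬝ᵥ u = v ⬝ᵥ v) :
    ∃ g : GU K n, (g : Matrix (Fin n) (Fin n) K) *ᵥ u = v ∨
      (g : Matrix (Fin n) (Fin n) K) *ᵥ u = -v := by
  rcases exists_pm h2 hu huv with h | h
  · exact ⟨_, Or.inl (rf_sub hs huv h)⟩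
  · exact ⟨_, Or.inr (rf_add hs huv h)⟩

/-- `S` contains the products `r_u r_v`, `u · u = v · v` -/
def Big (hs : ∀ x : K, star x = x) (S : Subgroup (GU K n)) : Prop :=
  ∀ (u v : Fin n → K) (hu : u ⬝ᵥ u ≠ 0) (hv : v ⬝ᵥ v ≠ 0), u ⬝ᵥ u = v ⬝ᵥ v →
    rf hs u hu * rf hs v hv ∈ S

/-- the commutator subgroup of `O_n(q)` -/
lemma big_commutator (hs : ∀ x : K, star x = x) (h2 : (2 : K) ≠ 0) :
    Big hs (commutator (GU K n)) := by
  intro u v hu hv huv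
  obtain ⟨g, hg⟩ := exists_rf' hs h2 hu huv
  have h : rf hs u hu * rf hs v hv = ⁅rf hs u hu, g⁆ := by
    rw [commutatorElement_def, rf_inv, ← conj_rf hs hu hv huv g hg]
    simp only [mul_assoc]
  rw [h]
  exact Subgroup.commutator_mem_commutator (Subgroup.mem_top _) (Subgroup.mem_top _)

/-- the inverse image of `Ω_n(q)` -/
lemma big_comap (hs : ∀ x : K, star x = x) (h2 : (2 : K) ≠ 0) :
    Big hs ((commutator (PGU K n)).comap (QuotientGroup.mk' (Subgroup.center (GU K n)))) := by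
  intro u v hu hv huv
  obtain ⟨g, hg⟩ := exists_rf' hs h2 hu huv
  have h : rf hs u hu * rf hs v hv = ⁅rf hs u hu, g⁆ := by
    rw [commutatorElement_def, rf_inv, ← conj_rf hs hu hv huv g hg]
    simp only [mul_assoc]
  rw [h, Subgroup.mem_comap, map_commutatorElement]
  exact Subgroup.commutator_mem_commutator (Subgroup.mem_top _) (Subgroup.mem_top _)

lemma Big.mono {hs : ∀ x : K, star x = x} {S T : Subgroup (GU K n)} (h : Big hs S) (hST : S ≤ T) :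
    Big hs T := fun u v hu hv huv => hST (h u v hu hv huv)

section finite

variable [Fintype K]

omit [StarRing K] in
/-- a nondegenerate diagonal plane represents everything -/
lemma rep (h2 : (2 : K) ≠ 0) {a b : K} (ha : a ≠ 0) (hb : b ≠ 0) {t : K} (ht : t ≠ 0) :
    ∃ x y : K, a * x ^ 2 + b * y ^ 2 = t := by
  obtain ⟨x, y, h⟩ := H281.rep_one h2 (div_ne_zero ha ht) (div_ne_zero hb ht)
  refine ⟨x, y, ?_⟩
  field_simp at h
  linear_combination h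

/-- all norms `t ≠ 0` occur in the complement of a unit vector, `n ≥ 3` -/
lemma exists_perp_one (hs : ∀ x : K, star x = x) (h2 : (2 : K) ≠ 0) (hn : 3 ≤ n)
    {x : Fin n → K} (hx : x ⬝ᵥ x = 1) {t : K} (ht : t ≠ 0) :
    ∃ z : Fin n → K, x ⬝ᵥ z = 0 ∧ z ⬝ᵥ z = t := by
  let i0 : Fin n := ⟨0, by omega⟩
  let i1 : Fin n := ⟨1, by omega⟩
  let i2 : Fin n := ⟨2, by omega⟩
  have h01 : i0 ≠ i1 := by simp [i0, i1]
  have h02 : i0 ≠ i2 := by simp [i0, i2]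
  have h12 : i1 ≠ i2 := by simp [i1, i2]
  obtain ⟨a, b, hab⟩ := rep h2 (one_ne_zero (α := K)) (one_ne_zero (α := K)) ht
  have he : x ⬝ᵥ x = (Pi.single i0 1 : Fin n → K) ⬝ᵥ (Pi.single i0 1 : Fin n → K) := by
    rw [hx]; simp
  obtain ⟨g, hg⟩ := exists_rf' hs h2 (by rw [hx]; exact one_ne_zero) he
  set z0 : Fin n → K := Pi.single i1 a + Pi.single i2 b with hz0
  have h3 : (Pi.single i0 1 : Fin n → K) ⬝ᵥ z0 = 0 := by
    simp [hz0, h01, h02]
  have h4 : z0 ⬝ᵥ z0 = t := by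
    rw [← hab]
    simp [hz0, h12, h12.symm]
    ring
  have h5 : (g : Matrix (Fin n) (Fin n) K) *ᵥ ((g⁻¹ : GU K n) : Matrix (Fin n) (Fin n) K) *ᵥ z0 =
      z0 := by
    rw [mulVec_mulVec]
    have : (g : Matrix (Fin n) (Fin n) K) * ((g⁻¹ : GU K n) : Matrix (Fin n) (Fin n) K) = 1 := by
      have := congrArg Subtype.val (mul_inv_cancel g)
      exact this
    rw [this, one_mulVec]
  refine ⟨((g⁻¹ : GU K n) : Matrix (Fin n) (Fin n) K) *ᵥ z0, ?_, ?_⟩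
  · rw [← dot_map hs g, h5]
    rcases hg with h | h
    · rw [h, h3]
    · rw [h, neg_dotProduct, h3, neg_zero]
  · rw [dot_map hs, h4]

/-- all norms `t ≠ 0` occur in the complement of a nondegenerate plane that contains a unit vector,
`n ≥ 4` -/
lemma exists_perp_two (hs : ∀ x : K, star x = x) (h2 : (2 : K) ≠ 0) (hn : 4 ≤ n)
    {x y : Fin n → K} (hx : x ⬝ᵥ x = 1) (hxy : x ⬝ᵥ y = 0) (hy : y ⬝ᵥ y ≠ 0) {t : K}
    (ht : t ≠ 0) : ∃ z : Fin n → K, x ⬝ᵥ z = 0 ∧ y ⬝ᵥ z = 0 ∧ z ⬝ᵥ z = t := by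
  let i0 : Fin n := ⟨0, by omega⟩
  let i1 : Fin n := ⟨1, by omega⟩
  let i2 : Fin n := ⟨2, by omega⟩
  let i3 : Fin n := ⟨3, by omega⟩
  have h01 : i0 ≠ i1 := by simp [i0, i1]
  have h02 : i0 ≠ i2 := by simp [i0, i2]
  have h03 : i0 ≠ i3 := by simp [i0, i3]
  have h12 : i1 ≠ i2 := by simp [i1, i2]
  have h13 : i1 ≠ i3 := by simp [i1, i3]
  have h23 : i2 ≠ i3 := by simp [i2, i3]
  -- move `x` to the first basis vector
  set e0 : Fin n → K := Pi.single i0 1 with he0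
  have he : x ⬝ᵥ x = e0 ⬝ᵥ e0 := by
    rw [hx]; simp [he0]
  obtain ⟨g, hg⟩ := exists_rf' hs h2 (by rw [hx]; exact one_ne_zero) he
  set y1 : Fin n → K := (g : Matrix (Fin n) (Fin n) K) *ᵥ y with hy1
  have hy1n : y1 ⬝ᵥ y1 = y ⬝ᵥ y := dot_map hs g y y
  have hey : e0 ⬝ᵥ y1 = 0 := by
    have h3 : ((g : Matrix (Fin n) (Fin n) K) *ᵥ x) ⬝ᵥ y1 = 0 := by rw [hy1, dot_map hs, hxy]
    rcases hg with h | h
    · rwa [h] at h3
    · rw [h, neg_dotProduct, neg_eq_zero] at h3; exact h3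
  -- move `y1` to a vector of the next plane
  obtain ⟨a, b, hab⟩ := rep h2 (one_ne_zero (α := K)) (one_ne_zero (α := K)) hy
  set w : Fin n → K := Pi.single i1 a + Pi.single i2 b with hw
  have hew : e0 ⬝ᵥ w = 0 := by simp [hw, he0, h01, h02]
  have hwn : w ⬝ᵥ w = y ⬝ᵥ y := by
    rw [← hab]
    simp [hw, h12, h12.symm]
    ring
  have hyw : y1 ⬝ᵥ y1 = w ⬝ᵥ w := by rw [hy1n, hwn]
  obtain ⟨k, hk0, hk⟩ : ∃ k : GU K n, (k : Matrix (Fin n) (Fin n) K) *ᵥ e0 = e0 ∧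
      ((k : Matrix (Fin n) (Fin n) K) *ᵥ y1 = w ∨ (k : Matrix (Fin n) (Fin n) K) *ᵥ y1 = -w) := by
    rcases exists_pm h2 (by rw [hy1n]; exact hy) hyw with h | h
    · refine ⟨rf hs _ h, rf_fix hs h ?_, Or.inl (rf_sub hs hyw h)⟩
      rw [sub_dotProduct, dotProduct_comm y1, dotProduct_comm w, hey, hew, sub_zero]
    · refine ⟨rf hs _ h, rf_fix hs h ?_, Or.inr (rf_add hs hyw h)⟩
      rw [add_dotProduct, dotProduct_comm y1, dotProduct_comm w, hey, hew, add_zero]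
  -- the vector
  obtain ⟨s, r, hsr⟩ := rep h2 hy (one_ne_zero (α := K)) ht
  set z0 : Fin n → K := Pi.single i1 (-(b * s)) + Pi.single i2 (a * s) + Pi.single i3 r with hz0
  have h3 : e0 ⬝ᵥ z0 = 0 := by simp [hz0, he0, h01, h02, h03]
  have h4 : w ⬝ᵥ z0 = 0 := by
    simp [hz0, hw, h12, h12.symm, h13, h23]
    ring
  have h5 : z0 ⬝ᵥ z0 = t := by
    rw [← hsr, ← hab]
    simp [hz0, h12, h12.symm, h13, h13.symm, h23, h23.symm]
    ring
  have h6 : ((k * g : GU K n) : Matrix (Fin n) (Fin n) K) *ᵥ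
      (((k * g)⁻¹ : GU K n) : Matrix (Fin n) (Fin n) K) *ᵥ z0 = z0 := by
    rw [mulVec_mulVec]
    have : ((k * g : GU K n) : Matrix (Fin n) (Fin n) K) *
        (((k * g)⁻¹ : GU K n) : Matrix (Fin n) (Fin n) K) = 1 := by
      have := congrArg Subtype.val (mul_inv_cancel (k * g))
      exact this
    rw [this, one_mulVec]
  have h7 : ∀ v : Fin n → K, ((k * g : GU K n) : Matrix (Fin n) (Fin n) K) *ᵥ v =
      (k : Matrix (Fin n) (Fin n) K) *ᵥ ((g : Matrix (Fin n) (Fin n) K) *ᵥ v) := by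
    intro v
    rw [mulVec_mulVec]; rfl
  refine ⟨(((k * g)⁻¹ : GU K n) : Matrix (Fin n) (Fin n) K) *ᵥ z0, ?_, ?_, ?_⟩
  · rw [← dot_map hs (k * g), h6, h7]
    rcases hg with h | h
    · rw [h, hk0, h3]
    · rw [h, mulVec_neg, hk0, neg_dotProduct, h3, neg_zero]
  · rw [← dot_map hs (k * g), h6, h7]
    rcases hk with h | h
    · rw [← hy1, h, h4]
    · rw [← hy1, h, neg_dotProduct, h4, neg_zero]
  · rw [dot_map hs, h5]

omit [Fintype K] in
lemma mul_mulVec' (k g : GU K n) (v : Fin n → K) :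
    ((k * g : GU K n) : Matrix (Fin n) (Fin n) K) *ᵥ v =
    (k : Matrix (Fin n) (Fin n) K) *ᵥ ((g : Matrix (Fin n) (Fin n) K) *ᵥ v) := by
  rw [mulVec_mulVec]; rfl

/-- `S` is transitive on the unit vectors up to sign, `n ≥ 3` -/
theorem trans_one (hs : ∀ x : K, star x = x) (h2 : (2 : K) ≠ 0) (hn : 3 ≤ n)
    {S : Subgroup (GU K n)} (hS : Big hs S) {x x' : Fin n → K} (hx : x ⬝ᵥ x = 1)
    (hx' : x' ⬝ᵥ x' = 1) : ∃ g ∈ S, (g : Matrix (Fin n) (Fin n) K) *ᵥ x = x' ∨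
      (g : Matrix (Fin n) (Fin n) K) *ᵥ x = -x' := by
  have hxx : x ⬝ᵥ x = x' ⬝ᵥ x' := by rw [hx, hx']
  rcases exists_pm h2 (by rw [hx]; exact one_ne_zero) hxx with h | h
  · obtain ⟨z, hz, hzz⟩ := exists_perp_one hs h2 hn hx' h
    have hz0 : z ⬝ᵥ z ≠ 0 := by rw [hzz]; exact h
    refine ⟨rf hs z hz0 * rf hs (x - x') h, hS _ _ _ _ hzz, Or.inl ?_⟩
    rw [mul_mulVec', rf_sub hs hxx h, rf_fix hs hz0 (by rw [dotProduct_comm, hz])]
  · obtain ⟨z, hz, hzz⟩ := exists_perp_one hs h2 hn hx' h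
    have hz0 : z ⬝ᵥ z ≠ 0 := by rw [hzz]; exact h
    refine ⟨rf hs z hz0 * rf hs (x + x') h, hS _ _ _ _ hzz, Or.inr ?_⟩
    rw [mul_mulVec', rf_add hs hxx h, mulVec_neg, rf_fix hs hz0 (by rw [dotProduct_comm, hz])]

/-- the stabilizer in `S` of a unit vector is transitive on the vectors of a fixed nonzero norm in
its complement, `n ≥ 4` -/
theorem trans_two (hs : ∀ x : K, star x = x) (h2 : (2 : K) ≠ 0) (hn : 4 ≤ n)
    {S : Subgroup (GU K n)} (hS : Big hs S) {x y y' : Fin n → K} (hx : x ⬝ᵥ x = 1)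
    (hxy : x ⬝ᵥ y = 0) (hxy' : x ⬝ᵥ y' = 0) (hy : y ⬝ᵥ y ≠ 0) (hyy : y ⬝ᵥ y = y' ⬝ᵥ y') :
    ∃ g ∈ S, (g : Matrix (Fin n) (Fin n) K) *ᵥ x = x ∧
      (g : Matrix (Fin n) (Fin n) K) *ᵥ y = y' := by
  have hy' : y' ⬝ᵥ y' ≠ 0 := by rw [← hyy]; exact hy
  by_cases h : (y - y') ⬝ᵥ (y - y') = 0
  · have hp : (y + y') ⬝ᵥ (y + y') ≠ 0 := (exists_pm h2 hy hyy).resolve_left (not_not.2 h)
    have h3 : ((2 : K) • y') ⬝ᵥ ((2 : K) • y') = (y + y') ⬝ᵥ (y + y') := by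
      rw [sub_dotProduct, dotProduct_sub, dotProduct_sub, dotProduct_comm y' y] at h
      rw [add_dotProduct, dotProduct_add, dotProduct_add, dotProduct_comm y' y, smul_dotProduct,
        dotProduct_smul, smul_eq_mul, smul_eq_mul]
      linear_combination h - 2 * hyy
    have h4 : ((2 : K) • y') ⬝ᵥ ((2 : K) • y') ≠ 0 := by rw [h3]; exact hp
    refine ⟨rf hs ((2 : K) • y') h4 * rf hs (y + y') hp, hS _ _ _ _ h3, ?_, ?_⟩
    · rw [mul_mulVec', rf_fix hs hp, rf_fix hs h4]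
      · rw [smul_dotProduct, dotProduct_comm y', hxy', smul_zero]
      · rw [add_dotProduct, dotProduct_comm y, dotProduct_comm y', hxy, hxy', add_zero]
    · rw [mul_mulVec', rf_add hs hyy hp, rf_mulVec]
      have h5 : 2 * (((2 : K) • y') ⬝ᵥ (-y')) / (((2 : K) • y') ⬝ᵥ ((2 : K) • y')) * 2 = -2 := by
        rw [div_mul_eq_mul_div, div_eq_iff h4, dotProduct_neg, dotProduct_smul, smul_eq_mul]
        ring
      rw [smul_smul, h5, neg_smul, two_smul]; abel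
  · obtain ⟨z, hz, hz', hzz⟩ := exists_perp_two hs h2 hn hx hxy' hy' h
    have hz0 : z ⬝ᵥ z ≠ 0 := by rw [hzz]; exact h
    refine ⟨rf hs z hz0 * rf hs (y - y') h, hS _ _ _ _ hzz, ?_, ?_⟩
    · rw [mul_mulVec', rf_fix hs h, rf_fix hs hz0 (by rw [dotProduct_comm, hz])]
      rw [sub_dotProduct, dotProduct_comm y, dotProduct_comm y', hxy, hxy', sub_zero]
    · rw [mul_mulVec', rf_sub hs hyy h, rf_fix hs hz0 (by rw [dotProduct_comm, hz'])]

end finite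

lemma exists_vec (hs : ∀ x : K, star x = x) (P : Ln K n) :
    ∃ x : Fin n → K, x ⬝ᵥ x = 1 ∧ P.1 = vecMulVec x x := by
  have hst : ∀ v : Fin n → K, star v = v := fun v => funext fun i => hs _
  obtain ⟨x, hx, hP⟩ := P.2
  rw [hst] at hx hP
  exact ⟨x, hx, hP⟩

lemma conj_vec (hs : ∀ x : K, star x = x) (g : GU K n) {x x' : Fin n → K}
    (h : (g : Matrix (Fin n) (Fin n) K) *ᵥ x = x' ∨ (g : Matrix (Fin n) (Fin n) K) *ᵥ x = -x') :
    (g : Matrix (Fin n) (Fin n) K) * vecMulVec x x * star (g : Matrix (Fin n) (Fin n) K) =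
      vecMulVec x' x' := by
  rw [mul_vecMulVec, vecMulVec_mul, star_eq hs, vecMul_transpose]
  rcases h with h | h
  · rw [h]
  · rw [h, neg_vecMulVec, vecMulVec_neg, neg_neg]

omit [StarRing K] in
lemma trace_vec (x y : Fin n → K) :
    (vecMulVec x x * vecMulVec y y).trace = (x ⬝ᵥ y) ^ 2 := by
  rw [vecMulVec_mul_vecMulVec, trace_vecMulVec, dotProduct_smul, smul_eq_mul, pow_two]

section finite

variable [Fintype K]

/-- (S2) `S` is transitive on the letters, `n ≥ 3` -/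
theorem trans_lines (hs : ∀ x : K, star x = x) (h2 : (2 : K) ≠ 0) (hn : 3 ≤ n)
    {S : Subgroup (GU K n)} (hS : Big hs S) (P P' : Ln K n) :
    ∃ g ∈ S, (g : Matrix (Fin n) (Fin n) K) * P.1 * star (g : Matrix (Fin n) (Fin n) K) = P'.1 := by
  obtain ⟨x, hx, hP⟩ := exists_vec hs P
  obtain ⟨x', hx', hP'⟩ := exists_vec hs P'
  obtain ⟨g, hg, h⟩ := trans_one hs h2 hn hS hx hx'
  exact ⟨g, hg, by rw [hP, hP', conj_vec hs g h]⟩

/-- (S3) `S` is transitive on the pairs of letters with the same trace, not `1`, `n ≥ 4` -/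
theorem trans_pairs (hs : ∀ x : K, star x = x) (h2 : (2 : K) ≠ 0) (hn : 4 ≤ n)
    {S : Subgroup (GU K n)} (hS : Big hs S) (P Q P' Q' : Ln K n)
    (htr : (P.1 * Q.1).trace = (P'.1 * Q'.1).trace) (h1 : (P.1 * Q.1).trace ≠ 1) :
    ∃ g ∈ S, (g : Matrix (Fin n) (Fin n) K) * P.1 * star (g : Matrix (Fin n) (Fin n) K) = P'.1 ∧
      (g : Matrix (Fin n) (Fin n) K) * Q.1 * star (g : Matrix (Fin n) (Fin n) K) = Q'.1 := by
  obtain ⟨x, hx, hP⟩ := exists_vec hs P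
  obtain ⟨x', hx', hP'⟩ := exists_vec hs P'
  obtain ⟨y, hy, hQ⟩ := exists_vec hs Q
  obtain ⟨y', hy', hQ'⟩ := exists_vec hs Q'
  rw [hP, hQ, hP', hQ', trace_vec, trace_vec] at htr
  rw [hP, hQ, trace_vec] at h1
  obtain ⟨g, hg, h⟩ := trans_one hs h2 (by omega) hS hx hx'
  -- the images
  set x1 : Fin n → K := (g : Matrix (Fin n) (Fin n) K) *ᵥ x with hx1
  set y1 : Fin n → K := (g : Matrix (Fin n) (Fin n) K) *ᵥ y with hy1
  have hx1n : x1 ⬝ᵥ x1 = 1 := by rw [hx1, dot_map hs, hx]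
  have hy1n : y1 ⬝ᵥ y1 = 1 := by rw [hy1, dot_map hs, hy]
  have hxy1 : x1 ⬝ᵥ y1 = x ⬝ᵥ y := dot_map hs g x y
  -- the sign of `y'`
  obtain ⟨y2, hy2, hxy2⟩ : ∃ y2 : Fin n → K, (y2 = y' ∨ y2 = -y') ∧ x1 ⬝ᵥ y2 = x ⬝ᵥ y := by
    rcases sq_eq_sq_iff_eq_or_eq_neg.1 htr with h5 | h5
    · rcases h with h | h
      · exact ⟨y', Or.inl rfl, by rw [h, h5]⟩
      · exact ⟨-y', Or.inr rfl, by rw [h, neg_dotProduct, dotProduct_neg, neg_neg, h5]⟩
    · rcases h with h | h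
      · exact ⟨-y', Or.inr rfl, by rw [h, dotProduct_neg, h5]⟩
      · exact ⟨y', Or.inl rfl, by rw [h, neg_dotProduct, h5]⟩
  have hy2n : y2 ⬝ᵥ y2 = 1 := by
    rcases hy2 with h5 | h5
    · rw [h5, hy']
    · rw [h5, neg_dotProduct, dotProduct_neg, neg_neg, hy']
  set c : K := x ⬝ᵥ y with hc
  have e1 : x1 ⬝ᵥ (y1 - c • x1) = 0 := by
    rw [dotProduct_sub, dotProduct_smul, hxy1, hx1n, smul_eq_mul, mul_one, sub_self]
  have e2 : x1 ⬝ᵥ (y2 - c • x1) = 0 := by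
    rw [dotProduct_sub, dotProduct_smul, hxy2, hx1n, smul_eq_mul, mul_one, sub_self]
  have e3 : (y1 - c • x1) ⬝ᵥ (y1 - c • x1) = 1 - c ^ 2 := by
    rw [sub_dotProduct, dotProduct_sub, dotProduct_sub, smul_dotProduct, smul_dotProduct,
      dotProduct_smul, dotProduct_smul, dotProduct_comm y1 x1, hxy1, hx1n, hy1n]
    simp only [smul_eq_mul]; ring
  have e4 : (y2 - c • x1) ⬝ᵥ (y2 - c • x1) = 1 - c ^ 2 := by
    rw [sub_dotProduct, dotProduct_sub, dotProduct_sub, smul_dotProduct, smul_dotProduct,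
      dotProduct_smul, dotProduct_smul, dotProduct_comm y2 x1, hxy2, hx1n, hy2n]
    simp only [smul_eq_mul]; ring
  have e5 : (1 - c ^ 2 : K) ≠ 0 := sub_ne_zero.2 (Ne.symm h1)
  obtain ⟨k, hk, hk1, hk2⟩ := trans_two hs h2 hn hS hx1n e1 e2 (by rw [e3]; exact e5)
    (by rw [e3, e4])
  have hk3 : (k : Matrix (Fin n) (Fin n) K) *ᵥ y1 = y2 := by
    have h5 := hk2
    rw [mulVec_sub, mulVec_smul, hk1] at h5
    exact sub_left_injective h5
  refine ⟨k * g, S.mul_mem hk hg, ?_, ?_⟩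
  · rw [hP, hP']
    apply conj_vec hs
    rw [mul_mulVec', ← hx1, hk1]
    exact h
  · rw [hQ, hQ']
    apply conj_vec hs
    rw [mul_mulVec', ← hy1, hk3]
    exact hy2

end finite

end refl

/-- **O6a** -/
theorem stmtO6a : StmtO6a.{u} := by
  intro K _ _ _ hs hodd n _ hn P Q P' Q' htr h1
  have h2 : (2 : K) ≠ 0 := two_ne hodd
  obtain ⟨g, hg, h3, h4⟩ := trans_pairs hs h2 (by omega) (big_comap hs h2) P Q P' Q' htr h1
  exact ⟨g, hg, h3, h4⟩

end Vale.Agent.P240.R2.H145
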