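import Vale.Agent.P240.R2.H145.EO8

/-!
The passage from `commutator (OD a / center)` to a subgroup of `GL_n(K)`, for the form `diag(a)`.
-/

set_option autoImplicit false

namespace Vale.Agent.P240.R2.H145.EO

open Matrix
open scoped commutatorElement

universe u v

section passage

variable {K : Type u} [Field K] {n : ℕ} {a : Fin n → K}

/-- the projective orthogonal group of the form `diag(a)` -/
abbrev PO (a : Fin n → K) : Type u := ↥(OD a) ⧸ Subgroup.center ↥(OD a)

/-- the isometries whose classes lie in the commutator subgroup of `PO a` -/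
def SOD (a : Fin n → K) : Subgroup (GL (Fin n) K) :=
  ((commutator (PO a)).comap (QuotientGroup.mk' (Subgroup.center ↥(OD a)))).map (OD a).subtype

lemma mem_SOD {g : GL (Fin n) K} :
    g ∈ SOD a ↔ ∃ h : g ∈ OD a, (QuotientGroup.mk (⟨g, h⟩ : OD a) : PO a) ∈ commutator (PO a) := by
  constructor
  · rintro ⟨h, hh, rfl⟩
    exact ⟨h.2, hh⟩
  · rintro ⟨h, hh⟩
    exact ⟨⟨g, h⟩, hh, rfl⟩

lemma SOD_le : SOD a ≤ OD a := fun _ hg => (mem_SOD.1 hg).1

/-- vectors of the same norm are conjugate up to sign -/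
lemma exists_rf (h2 : (2 : K) ≠ 0) {u v : Fin n → K} (hu : B a u u ≠ 0)
    (huv : B a u u = B a v v) : ∃ g ∈ OD a, ac g u = v ∨ ac g u = -v := by
  rcases exists_pm h2 hu huv with h | h
  · exact ⟨_, rf_mem h, Or.inl (rf_sub huv h)⟩
  · exact ⟨_, rf_mem h, Or.inr (rf_add huv h)⟩

/-- products of two reflections of the same norm are commutators -/
lemma rf_comm (h2 : (2 : K) ≠ 0) {u v : Fin n → K} (hu : B a u u ≠ 0) (hv : B a v v ≠ 0)
    (huv : B a u u = B a v v) : (⟨rf a u hu * rf a v hv, mul_mem (rf_mem hu) (rf_mem hv)⟩ : OD a) ∈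
      commutator (OD a) := by
  obtain ⟨g, hg, h⟩ := exists_rf h2 hu huv
  have h1 : (⟨rf a u hu * rf a v hv, mul_mem (rf_mem hu) (rf_mem hv)⟩ : OD a) =
      ⁅(⟨rf a u hu, rf_mem hu⟩ : OD a), (⟨g, hg⟩ : OD a)⁆ := by
    apply Subtype.ext
    show rf a u hu * rf a v hv = rf a u hu * g * (rf a u hu)⁻¹ * g⁻¹
    rw [rf_inv, ← rf_conj hg hu hv h]
    simp only [_root_.mul_assoc]
  rw [h1]
  exact Subgroup.commutator_mem_commutator (Subgroup.mem_top _) (Subgroup.mem_top _)

lemma SOD_big (h2 : (2 : K) ≠ 0) : Big a (SOD a) := by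
  intro u v hu hv huv
  rw [mem_SOD]
  refine ⟨mul_mem (rf_mem hu) (rf_mem hv), ?_⟩
  have h1 := rf_comm h2 hu hv huv
  have h3 : (commutator (OD a)).map (QuotientGroup.mk' (Subgroup.center ↥(OD a))) ≤
      commutator (PO a) := by
    rw [commutator_def, Subgroup.map_commutator, commutator_def]
    exact Subgroup.commutator_mono le_top le_top
  exact h3 ⟨_, h1, rfl⟩

/-- the centre of the orthogonal group -/
lemma mem_center [Fintype K] (h2 : (2 : K) ≠ 0) (h5 : 5 < Fintype.card K) (hn : 3 ≤ n)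
    (ha : ∀ i, a i ≠ 0) (ha1 : ∀ i : Fin n, i.val + 1 < n → a i = 1) (g : OD a) :
    g ∈ Subgroup.center ↥(OD a) ↔ ∃ l : K, g.1.1 = l • (1 : Matrix (Fin n) (Fin n) K) := by
  constructor
  · intro h
    rw [Subgroup.mem_center_iff] at h
    obtain ⟨l, hl⟩ := H275.scal h2 h5 hn ha ha1 g.2 (fun y hy => by
      have hy0 : B a y y ≠ 0 := by rw [hy]; exact one_ne_zero
      have hgy : B a (ac g.1 y) (ac g.1 y) = 1 := by rw [OD_B g.2, hy]
      have hgy0 : B a (ac g.1 y) (ac g.1 y) ≠ 0 := by rw [hgy]; exact one_ne_zero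
      have h1 := congrArg Subtype.val (h ⟨rf a y hy0, rf_mem hy0⟩)
      have h3 : g.1 * rf a y hy0 * g.1⁻¹ = rf a y hy0 := by
        have h4 : rf a y hy0 * g.1 = g.1 * rf a y hy0 := h1
        rw [← h4, mul_inv_cancel_right]
      rw [rf_conj g.2 hy0 hgy0 (Or.inl rfl)] at h3
      have h5 := congrArg (fun k => ac k y) h3
      simp only [ac_rf, hy, hgy, div_one] at h5
      set c := B a (ac g.1 y) y with hc
      have h6 : y = c • ac g.1 y := by
        have h7 : (2 : K) • y = (2 : K) • (c • ac g.1 y) := by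
          have h8 : (2 : K) • y = y - (y - (2 * 1 : K) • y) := by module
          rw [h8, ← h5]
          module
        exact smul_right_injective _ h2 h7
      have h7 : c * c = 1 := by
        have h8 := congrArg (fun w => B a w w) h6
        simp only [B_smul_left, B_smul_right, hgy, hy, mul_one] at h8
        exact h8.symm
      have h8 : (c - 1) * (c + 1) = 0 := by linear_combination h7
      apply PM.symm
      rcases mul_eq_zero.1 h8 with h9 | h9
      · left
        rw [sub_eq_zero.1 h9, one_smul] at h6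
        exact h6
      · right
        rw [eq_neg_of_add_eq_zero_left h9, neg_smul, one_smul] at h6
        exact h6)
    refine ⟨l, ?_⟩
    apply Matrix.ext_of_mulVec_single
    intro i
    rw [smul_mulVec, one_mulVec]
    exact hl _
  · rintro ⟨l, hl⟩
    rw [Subgroup.mem_center_iff]
    intro k
    apply Subtype.ext
    apply Units.ext
    show k.1.1 * g.1.1 = g.1.1 * k.1.1
    rw [hl, mul_smul_comm, smul_mul_assoc, mul_one, one_mul]

variable {G : Type v} [Group G]

/-- the map to a group isomorphic to the commutator subgroup -/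
noncomputable def epsD {L : Subgroup G} (f : commutator (PO a) ≃* L) : SOD a →* G where
  toFun g := (f ⟨QuotientGroup.mk (⟨g.1, (mem_SOD.1 g.2).1⟩ : OD a), (mem_SOD.1 g.2).2⟩ : G)
  map_one' := by
    have h1 : (⟨QuotientGroup.mk (⟨(1 : SOD a).1, (mem_SOD.1 (1 : SOD a).2).1⟩ : OD a),
        (mem_SOD.1 (1 : SOD a).2).2⟩ : commutator (PO a)) = 1 := rfl
    rw [h1, map_one]
    rfl
  map_mul' g h := by
    have h1 : (⟨QuotientGroup.mk (⟨(g * h).1, (mem_SOD.1 (g * h).2).1⟩ : OD a),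
        (mem_SOD.1 (g * h).2).2⟩ : commutator (PO a)) =
        ⟨QuotientGroup.mk (⟨g.1, (mem_SOD.1 g.2).1⟩ : OD a), (mem_SOD.1 g.2).2⟩ *
        ⟨QuotientGroup.mk (⟨h.1, (mem_SOD.1 h.2).1⟩ : OD a), (mem_SOD.1 h.2).2⟩ := rfl
    rw [h1, map_mul]
    rfl

lemma epsD_range {L : Subgroup G} (f : commutator (PO a) ≃* L) : (epsD f).range = L := by
  ext y
  constructor
  · rintro ⟨g, rfl⟩
    exact (f _).2
  · intro hy
    obtain ⟨⟨c, hc⟩, he⟩ := f.surjective ⟨y, hy⟩
    obtain ⟨g, rfl⟩ := QuotientGroup.mk_surjective c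
    refine ⟨⟨g.1, mem_SOD.2 ⟨g.2, hc⟩⟩, ?_⟩
    exact congrArg Subtype.val he

lemma epsD_ker [Fintype K] (h2 : (2 : K) ≠ 0) (h5 : 5 < Fintype.card K) (hn : 3 ≤ n)
    (ha : ∀ i, a i ≠ 0) (ha1 : ∀ i : Fin n, i.val + 1 < n → a i = 1) {L : Subgroup G}
    (f : commutator (PO a) ≃* L) : Ker (epsD f) := by
  intro g
  have h1 : epsD f g = 1 ↔
      (QuotientGroup.mk (⟨g.1, (mem_SOD.1 g.2).1⟩ : OD a) : PO a) = 1 := by
    constructor
    · intro h
      have h3 : f ⟨QuotientGroup.mk (⟨g.1, (mem_SOD.1 g.2).1⟩ : OD a), (mem_SOD.1 g.2).2⟩ = 1 :=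
        Subtype.ext h
      exact congrArg Subtype.val ((MulEquiv.map_eq_one_iff f).1 h3)
    · intro h
      have h3 : (⟨QuotientGroup.mk (⟨g.1, (mem_SOD.1 g.2).1⟩ : OD a), (mem_SOD.1 g.2).2⟩ :
          commutator (PO a)) = 1 := Subtype.ext h
      show (f _ : G) = 1
      rw [h3, map_one]
      rfl
  rw [h1, QuotientGroup.eq_one_iff, mem_center h2 h5 hn ha ha1]

/-- elements of the normalizer normalise `ε` -/
lemma norm_eps {L : Subgroup G} {ε : SOD a →* G} (hr : ε.range = L) {x : G}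
    (hx : x ∈ Subgroup.normalizer (L : Set G)) (g : SOD a) : ∃ g', x * ε g * x⁻¹ = ε g' := by
  have h1 : ε g ∈ L := by rw [← hr]; exact ⟨g, rfl⟩
  have h3 := (Subgroup.mem_normalizer_iff.1 hx (ε g)).1 h1
  rw [← hr] at h3
  obtain ⟨g', h4⟩ := h3
  exact ⟨g', h4.symm⟩

/-- `x` acts by the semilinear map `M σ` -/
def ActsD {S : Subgroup (GL (Fin n) K)} (ε : S →* G) (x : G) (M : GL (Fin n) K) (σ : K ≃+* K) :
    Prop :=
  ∀ g g' : S, g'.1.1 * M.1 = M.1 * g.1.1.map σ → x * ε g * x⁻¹ = ε g'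

/-- **the semilinear map**: an element of the normalizer that commutes with the products of two
reflections of the standard frame -/
theorem sem_D [Fintype K] (h2 : (2 : K) ≠ 0) (h5 : 5 < Fintype.card K) (hn : 6 ≤ n)
    (ha : ∀ i, a i ≠ 0) (ha1 : ∀ i : Fin n, i.val + 1 < n → a i = 1) {L : Subgroup G}
    {ε : SOD a →* G} (hr : ε.range = L) (hk : Ker ε) {x : G}
    (hx : x ∈ Subgroup.normalizer (L : Set G))
    (hc : ∀ (i j : Fin n) (s : SOD a), i.val + 1 < n → j.val + 1 < n → i ≠ j →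
      (∀ y, ac s.1 y = fun k => if k = i ∨ k = j then -y k else y k) → x * ε s = ε s * x) :
    ∃ (σ : K ≃+* K) (c : Fin n → K) (M : GL (Fin n) K), (∀ i, c i ^ 2 * a i = σ (a i)) ∧
      M.1 = diagonal c ∧ ActsD ε x M σ := by
  obtain ⟨σ, c, hc1, hc2⟩ := stmtEO K h2 h5 n hn a ha ha1 (SOD a) (SOD_big h2) SOD_le G ε hk x
    (norm_eps hr hx) hc
  have hc0 : ∀ i, c i ≠ 0 := by
    intro i h3
    have h4 := hc1 i
    rw [h3, zero_pow two_ne_zero, zero_mul] at h4
    exact (map_ne_zero σ).2 (ha i) h4.symm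
  refine ⟨σ, c, ⟨diagonal c, diagonal (fun i => (c i)⁻¹), ?_, ?_⟩, hc1, rfl, ?_⟩
  · rw [diagonal_mul_diagonal, ← diagonal_one]
    congr 1
    funext i
    exact mul_inv_cancel₀ (hc0 i)
  · rw [diagonal_mul_diagonal, ← diagonal_one]
    congr 1
    funext i
    exact inv_mul_cancel₀ (hc0 i)
  · intro g g' h
    apply hc2
    intro i j
    have h3 := congrFun (congrFun h i) j
    rw [mul_diagonal, diagonal_mul, Matrix.map_apply] at h3
    exact h3

end passage

end Vale.Agent.P240.R2.H145.EO
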