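import Vale.Agent.P240.R2.H281.H90b

/-!
The form `diag(a)`, `a i = 1` except possibly for the last index: reflections, orthonormal tuples,
transitivity. (Tools for the automorphisms of `PΩ^±_n(q)`, `n` even.)
-/

set_option autoImplicit false

namespace Vale.Agent.P240.R2.H145.EO

open Matrix

universe u

variable {K : Type u} [Field K] {n : ℕ} {a : Fin n → K}

/-- the form with Gram matrix `diag(a)` -/
def B (a : Fin n → K) (x y : Fin n → K) : K := ∑ i, a i * x i * y i

lemma B_comm (x y : Fin n → K) : B a x y = B a y x := by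
  unfold B
  exact Finset.sum_congr rfl fun i _ => by ring

lemma B_add_left (x y z : Fin n → K) : B a (x + y) z = B a x z + B a y z := by
  unfold B
  rw [← Finset.sum_add_distrib]
  exact Finset.sum_congr rfl fun i _ => by rw [Pi.add_apply]; ring

lemma B_smul_left (t : K) (x y : Fin n → K) : B a (t • x) y = t * B a x y := by
  unfold B
  rw [Finset.mul_sum]
  exact Finset.sum_congr rfl fun i _ => by rw [Pi.smul_apply, smul_eq_mul]; ring

lemma B_add_right (x y z : Fin n → K) : B a x (y + z) = B a x y + B a x z := by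
  rw [B_comm, B_add_left, B_comm y, B_comm z]

lemma B_smul_right (t : K) (x y : Fin n → K) : B a x (t • y) = t * B a x y := by
  rw [B_comm, B_smul_left, B_comm y]

lemma B_neg_left (x y : Fin n → K) : B a (-x) y = -B a x y := by
  rw [← neg_one_smul K x, B_smul_left]; ring

lemma B_neg_right (x y : Fin n → K) : B a x (-y) = -B a x y := by
  rw [B_comm, B_neg_left, B_comm y]

lemma B_sub_left (x y z : Fin n → K) : B a (x - y) z = B a x z - B a y z := by
  rw [sub_eq_add_neg, B_add_left, B_neg_left]; ring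

lemma B_sub_right (x y z : Fin n → K) : B a x (y - z) = B a x y - B a x z := by
  rw [B_comm, B_sub_left, B_comm y, B_comm z]

lemma B_single (i : Fin n) (t : K) (y : Fin n → K) :
    B a (Pi.single i t) y = a i * t * y i := by
  unfold B
  rw [Finset.sum_eq_single i]
  · rw [Pi.single_eq_same]
  · intro j _ hj
    rw [Pi.single_eq_of_ne hj]; ring
  · intro h
    exact absurd (Finset.mem_univ _) h

/-- the action on vectors -/
def ac (g : GL (Fin n) K) (x : Fin n → K) : Fin n → K := g.1 *ᵥ x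

lemma ac_mul (g h : GL (Fin n) K) (x : Fin n → K) : ac (g * h) x = ac g (ac h x) := by
  unfold ac
  rw [mulVec_mulVec]; rfl

lemma ac_one (x : Fin n → K) : ac 1 x = x := by
  unfold ac
  exact one_mulVec x

lemma ac_inv (g : GL (Fin n) K) (x : Fin n → K) : ac g⁻¹ (ac g x) = x := by
  rw [← ac_mul, inv_mul_cancel, ac_one]

lemma ac_inv' (g : GL (Fin n) K) (x : Fin n → K) : ac g (ac g⁻¹ x) = x := by
  rw [← ac_mul, mul_inv_cancel, ac_one]

lemma ac_neg (g : GL (Fin n) K) (x : Fin n → K) : ac g (-x) = -ac g x := mulVec_neg _ _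

lemma ac_add (g : GL (Fin n) K) (x y : Fin n → K) : ac g (x + y) = ac g x + ac g y :=
  mulVec_add _ _ _

lemma ac_smul (g : GL (Fin n) K) (t : K) (x : Fin n → K) : ac g (t • x) = t • ac g x :=
  mulVec_smul _ _ _

/-- the isometries -/
def OD (a : Fin n → K) : Subgroup (GL (Fin n) K) where
  carrier := {g | ∀ x y, B a (ac g x) (ac g y) = B a x y}
  mul_mem' := by
    intro g h hg hh x y
    rw [ac_mul, ac_mul]
    exact (hg _ _).trans (hh _ _)
  one_mem' := by
    intro x y
    rw [ac_one, ac_one]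
  inv_mem' := by
    intro g hg x y
    rw [← hg, ac_inv', ac_inv']

lemma OD_B {g : GL (Fin n) K} (hg : g ∈ OD a) (x y : Fin n → K) :
    B a (ac g x) (ac g y) = B a x y := hg x y

/-- the matrix of a reflection -/
def rM (a v : Fin n → K) : Matrix (Fin n) (Fin n) K :=
  1 - (2 / B a v v) • vecMulVec v (a * v)

lemma rM_mulVec (v x : Fin n → K) : rM a v *ᵥ x = x - (2 * B a v x / B a v v) • v := by
  unfold rM
  rw [Matrix.sub_mulVec, one_mulVec, Matrix.smul_mulVec, vecMulVec_mulVec]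
  congr 1
  have h : (a * v) ⬝ᵥ x = B a v x := rfl
  rw [h]
  ext i
  simp only [Pi.smul_apply, smul_eq_mul, MulOpposite.smul_eq_mul_unop, MulOpposite.unop_op]
  ring

lemma rM_sq {v : Fin n → K} (hv : B a v v ≠ 0) : rM a v * rM a v = 1 := by
  apply Matrix.ext_of_mulVec_single
  intro i
  rw [← mulVec_mulVec, rM_mulVec, rM_mulVec, one_mulVec, B_sub_right, B_smul_right]
  have h : 2 * B a v (Pi.single i 1) / B a v v +
      2 * (B a v (Pi.single i 1) - 2 * B a v (Pi.single i 1) / B a v v * B a v v) / B a v v = 0 := by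
    field_simp
    ring
  rw [sub_sub, ← add_smul, h, zero_smul, sub_zero]

/-- the reflection -/
def rf (a v : Fin n → K) (hv : B a v v ≠ 0) : GL (Fin n) K := ⟨rM a v, rM a v, rM_sq hv, rM_sq hv⟩

lemma ac_rf {v : Fin n → K} (hv : B a v v ≠ 0) (x : Fin n → K) :
    ac (rf a v hv) x = x - (2 * B a v x / B a v v) • v := rM_mulVec v x

lemma rf_mem {v : Fin n → K} (hv : B a v v ≠ 0) : rf a v hv ∈ OD a := by
  intro x y
  rw [ac_rf, ac_rf, B_sub_left, B_sub_right, B_sub_right, B_smul_left, B_smul_right, B_smul_left,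
    B_smul_right, B_comm x v]
  field_simp
  ring

lemma rf_inv {v : Fin n → K} (hv : B a v v ≠ 0) : (rf a v hv)⁻¹ = rf a v hv := by
  apply Units.ext
  rfl

lemma rf_rf {v : Fin n → K} (hv : B a v v ≠ 0) : rf a v hv * rf a v hv = 1 := by
  apply Units.ext
  exact rM_sq hv

lemma gl_ext {g h : GL (Fin n) K} (H : ∀ x, ac g x = ac h x) : g = h := by
  apply Units.ext
  apply Matrix.ext_of_mulVec_single
  intro i
  exact H _

lemma rf_conj {g : GL (Fin n) K} (hg : g ∈ OD a) {v w : Fin n → K} (hv : B a v v ≠ 0)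
    (hw : B a w w ≠ 0) (h : ac g v = w ∨ ac g v = -w) : g * rf a v hv * g⁻¹ = rf a w hw := by
  apply gl_ext
  intro x
  have h2 : ac g (ac g⁻¹ x) = x := ac_inv' g x
  rw [ac_mul, ac_mul, ac_rf, ac_rf, sub_eq_add_neg, ac_add, ac_neg, ac_smul, h2]
  have h3 : B a v (ac g⁻¹ x) = B a (ac g v) x := by
    rw [← OD_B hg v, h2]
  have h4 : B a v v = B a (ac g v) (ac g v) := (OD_B hg v v).symm
  rw [h3, h4]
  rcases h with h | h
  · rw [h]; abel
  · rw [h, B_neg_left, B_neg_left, B_neg_right, neg_neg]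
    rw [mul_neg, neg_div, neg_smul, smul_neg, neg_neg, sub_eq_add_neg]

/-- one of `u - v`, `u + v` is not isotropic -/
lemma exists_pm (h2 : (2 : K) ≠ 0) {u v : Fin n → K} (hu : B a u u ≠ 0)
    (huv : B a u u = B a v v) : B a (u - v) (u - v) ≠ 0 ∨ B a (u + v) (u + v) ≠ 0 := by
  by_contra h
  push Not at h
  obtain ⟨h3, h4⟩ := h
  rw [B_sub_left, B_sub_right, B_sub_right, B_comm v u] at h3
  rw [B_add_left, B_add_right, B_add_right, B_comm v u] at h4
  have h5 : (2 : K) * 2 * B a u u = 0 := by linear_combination h3 + h4 + 2 * huv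
  exact mul_ne_zero (mul_ne_zero h2 h2) hu h5

lemma rf_sub {u v : Fin n → K} (huv : B a u u = B a v v) (h : B a (u - v) (u - v) ≠ 0) :
    ac (rf a (u - v) h) u = v := by
  have h3 : 2 * B a (u - v) u = B a (u - v) (u - v) := by
    rw [B_sub_left, B_sub_left, B_sub_right, B_sub_right, B_comm v u]
    linear_combination huv
  rw [ac_rf, h3, div_self h, one_smul]; abel

lemma rf_add {u v : Fin n → K} (huv : B a u u = B a v v) (h : B a (u + v) (u + v) ≠ 0) :
    ac (rf a (u + v) h) u = -v := by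
  have h3 : 2 * B a (u + v) u = B a (u + v) (u + v) := by
    rw [B_add_left, B_add_left, B_add_right, B_add_right, B_comm v u]
    linear_combination huv
  rw [ac_rf, h3, div_self h, one_smul]; abel

lemma rf_fix {v x : Fin n → K} (hv : B a v v ≠ 0) (h : B a v x = 0) : ac (rf a v hv) x = x := by
  rw [ac_rf, h, mul_zero, zero_div, zero_smul, sub_zero]

/-- orthonormal tuples -/
def ON (a : Fin n → K) {k : ℕ} (x : Fin k → Fin n → K) : Prop :=
  ∀ i j, B a (x i) (x j) = if i = j then 1 else 0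

lemma ON.castSucc {k : ℕ} {x : Fin (k + 1) → Fin n → K} (hx : ON a x) :
    ON a (fun i : Fin k => x i.castSucc) := by
  intro i j
  rw [hx]
  simp [Fin.castSucc_inj]

lemma ON.map {k : ℕ} {x : Fin k → Fin n → K} (hx : ON a x) {g : GL (Fin n) K} (hg : g ∈ OD a) :
    ON a (fun i => ac g (x i)) := by
  intro i j
  rw [OD_B hg, hx]

/-- appending a vector -/
lemma ON.snoc {k : ℕ} {x : Fin k → Fin n → K} (hx : ON a x) {y : Fin n → K}
    (h1 : ∀ i, B a (x i) y = 0) (h2 : B a y y = 1) :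
    ON a (Fin.snoc (α := fun _ => Fin n → K) x y) := by
  intro i j
  refine Fin.lastCases ?_ (fun i => ?_) i
  · refine Fin.lastCases ?_ (fun j => ?_) j
    · simp [h2]
    · rw [Fin.snoc_last, Fin.snoc_castSucc, B_comm, h1, if_neg (Fin.castSucc_lt_last j).ne']
  · refine Fin.lastCases ?_ (fun j => ?_) j
    · rw [Fin.snoc_last, Fin.snoc_castSucc, h1, if_neg (Fin.castSucc_lt_last i).ne]
    · rw [Fin.snoc_castSucc, Fin.snoc_castSucc, hx]
      simp [Fin.castSucc_inj]

lemma B_e (ha1 : ∀ i : Fin n, i.val + 1 < n → a i = 1) {i : Fin n} (hi : i.val + 1 < n)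
    (y : Fin n → K) : B a (Pi.single i 1) y = y i := by
  rw [B_single, ha1 i hi]; ring

/-- orthonormal tuples are standard up to an isometry -/
lemma std (h2 : (2 : K) ≠ 0) (ha1 : ∀ i : Fin n, i.val + 1 < n → a i = 1) :
    ∀ (k : ℕ) (hk : k + 1 ≤ n) (x : Fin k → Fin n → K), ON a x → ∃ g ∈ OD a, ∀ i : Fin k,
      ac g (x i) = Pi.single ⟨i.val, by omega⟩ 1 ∨ ac g (x i) = -Pi.single ⟨i.val, by omega⟩ 1 := by
  intro k
  induction k with
  | zero => exact fun _ _ _ => ⟨1, one_mem _, fun i => i.elim0⟩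
  | succ k ih =>
    intro hk x hx
    obtain ⟨g, hg, hgx⟩ := ih (by omega) _ hx.castSucc
    set v : Fin n → K := ac g (x (Fin.last k)) with hv
    set e : Fin n → K := Pi.single ⟨k, by omega⟩ 1 with he
    have hvv : B a v v = 1 := by rw [hv, OD_B hg, hx, if_pos rfl]
    have hee : B a e e = 1 := by
      rw [he, B_e ha1 (by show k + 1 < n; omega), Pi.single_eq_same]
    have hvi : ∀ i : Fin k, B a (Pi.single ⟨i.val, by omega⟩ 1) v = 0 := by
      intro i
      have h3 : B a (ac g (x i.castSucc)) v = 0 := by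
        rw [hv, OD_B hg, hx, if_neg (Fin.castSucc_lt_last i).ne]
      rcases hgx i with h | h
      · rwa [h] at h3
      · rw [h, B_neg_left, neg_eq_zero] at h3; exact h3
    have hei : ∀ i : Fin k, B a (Pi.single ⟨i.val, by omega⟩ 1) e = 0 := by
      intro i
      rw [B_e ha1 (by show i.val + 1 < n; omega), he, Pi.single_eq_of_ne]
      intro h
      have := congrArg Fin.val h
      simp only at this
      omega
    have hve : B a v v = B a e e := by rw [hvv, hee]
    obtain ⟨r, hr, hre, hri⟩ : ∃ r ∈ OD a, (ac r v = e ∨ ac r v = -e) ∧ ∀ i : Fin k,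
        ac r (Pi.single ⟨i.val, by omega⟩ 1) = Pi.single ⟨i.val, by omega⟩ 1 := by
      rcases exists_pm h2 (by rw [hvv]; exact one_ne_zero) hve with h | h
      · refine ⟨rf a _ h, rf_mem h, Or.inl (rf_sub hve h), fun i => rf_fix h ?_⟩
        rw [B_comm, B_sub_right, hvi, hei, sub_zero]
      · refine ⟨rf a _ h, rf_mem h, Or.inr (rf_add hve h), fun i => rf_fix h ?_⟩
        rw [B_comm, B_add_right, hvi, hei, add_zero]
    refine ⟨r * g, mul_mem hr hg, fun i => ?_⟩
    refine Fin.lastCases ?_ (fun i => ?_) i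
    · rw [ac_mul]
      exact hre
    · rw [ac_mul]
      rcases hgx i with h | h
      · left
        rw [h]
        exact hri i
      · right
        rw [h, ac_neg, hri i]
        rfl

section finite

variable [Fintype K]

/-- a nondegenerate diagonal plane represents everything -/
lemma rep (h2 : (2 : K) ≠ 0) {s r : K} (hs : s ≠ 0) (hr : r ≠ 0) {t : K} (ht : t ≠ 0) :
    ∃ x y : K, s * x ^ 2 + r * y ^ 2 = t := by
  obtain ⟨x, y, h⟩ := H281.rep_one h2 (div_ne_zero hs ht) (div_ne_zero hr ht)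
  refine ⟨x, y, ?_⟩
  field_simp at h
  linear_combination h

/-- every norm `t ≠ 0` occurs in the complement of an orthonormal `k`-tuple, `k + 2 ≤ n` -/
lemma perp1 (h2 : (2 : K) ≠ 0) (ha : ∀ i, a i ≠ 0) (ha1 : ∀ i : Fin n, i.val + 1 < n → a i = 1)
    {k : ℕ} (hk : k + 2 ≤ n) {x : Fin k → Fin n → K} (hx : ON a x) {t : K} (ht : t ≠ 0) :
    ∃ z : Fin n → K, (∀ i, B a (x i) z = 0) ∧ B a z z = t := by
  obtain ⟨g, hg, hgx⟩ := std h2 ha1 k (by omega) x hx
  let i0 : Fin n := ⟨k, by omega⟩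
  let i1 : Fin n := ⟨k + 1, by omega⟩
  have h01 : i0 ≠ i1 := by simp [i0, i1]
  obtain ⟨s, r, hsr⟩ := rep h2 (ha i0) (ha i1) ht
  set z0 : Fin n → K := Pi.single i0 s + Pi.single i1 r with hz0
  have hzz : B a z0 z0 = t := by
    rw [hz0, B_add_left, B_single, B_single, ← hsr]
    simp [h01, h01.symm]
    ring
  have hzi : ∀ i : Fin k, B a (Pi.single ⟨i.val, by omega⟩ 1) z0 = 0 := by
    intro i
    rw [B_e ha1 (by show i.val + 1 < n; omega), hz0, Pi.add_apply, Pi.single_eq_of_ne,
      Pi.single_eq_of_ne, add_zero]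
    · intro h
      have := congrArg Fin.val h
      simp only [i1] at this
      omega
    · intro h
      have := congrArg Fin.val h
      simp only [i0] at this
      omega
  refine ⟨ac g⁻¹ z0, fun i => ?_, ?_⟩
  · rw [← OD_B hg, ac_inv']
    rcases hgx i with h | h
    · rw [h, hzi]
    · rw [h, B_neg_left, hzi, neg_zero]
  · rw [← OD_B hg, ac_inv', hzz]

/-- every norm `t ≠ 0` occurs in the complement of an orthonormal `k`-tuple and one more orthogonal
vector of nonzero norm, `k + 3 ≤ n` -/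
lemma perp2 (h2 : (2 : K) ≠ 0) (ha : ∀ i, a i ≠ 0) (ha1 : ∀ i : Fin n, i.val + 1 < n → a i = 1)
    {k : ℕ} (hk : k + 3 ≤ n) {x : Fin k → Fin n → K} (hx : ON a x) {y : Fin n → K}
    (hxy : ∀ i, B a (x i) y = 0) (hy : B a y y ≠ 0) {t : K} (ht : t ≠ 0) :
    ∃ z : Fin n → K, (∀ i, B a (x i) z = 0) ∧ B a y z = 0 ∧ B a z z = t := by
  obtain ⟨g, hg, hgx⟩ := std h2 ha1 k (by omega) x hx
  let i0 : Fin n := ⟨k, by omega⟩
  let i1 : Fin n := ⟨k + 1, by omega⟩
  let i2 : Fin n := ⟨k + 2, by omega⟩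
  have h01 : i0 ≠ i1 := by simp [i0, i1]
  have h02 : i0 ≠ i2 := by simp [i0, i2]
  have h12 : i1 ≠ i2 := by simp [i1, i2]
  have a0 : a i0 = 1 := ha1 _ (by show k + 1 < n; omega)
  have a1 : a i1 = 1 := ha1 _ (by show k + 1 + 1 < n; omega)
  have hne : ∀ (i : Fin k) (j : Fin n), k ≤ j.val → (⟨i.val, by omega⟩ : Fin n) ≠ j := by
    intro i j hj h
    have := congrArg Fin.val h
    simp only at this
    omega
  set y1 : Fin n → K := ac g y with hy1
  have hyy : B a y1 y1 = B a y y := OD_B hg y y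
  have hyi : ∀ i : Fin k, B a (Pi.single ⟨i.val, by omega⟩ 1) y1 = 0 := by
    intro i
    have h3 : B a (ac g (x i)) y1 = 0 := by rw [hy1, OD_B hg, hxy]
    rcases hgx i with h | h
    · rwa [h] at h3
    · rw [h, B_neg_left, neg_eq_zero] at h3; exact h3
  obtain ⟨c, d, hcd⟩ := rep h2 (one_ne_zero (α := K)) (one_ne_zero (α := K)) hy
  set w : Fin n → K := Pi.single i0 c + Pi.single i1 d with hw
  have hww : B a w w = B a y y := by
    rw [← hcd, hw, B_add_left, B_single, B_single, a0, a1]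
    simp [h01, h01.symm]
    ring
  have hwi : ∀ i : Fin k, B a (Pi.single ⟨i.val, by omega⟩ 1) w = 0 := by
    intro i
    rw [B_e ha1 (by show i.val + 1 < n; omega), hw, Pi.add_apply,
      Pi.single_eq_of_ne (hne i i0 le_rfl), Pi.single_eq_of_ne (hne i i1 (by simp [i1])), add_zero]
  have hyw : B a y1 y1 = B a w w := by rw [hyy, hww]
  obtain ⟨r, hr, hre, hri⟩ : ∃ r ∈ OD a, (ac r y1 = w ∨ ac r y1 = -w) ∧ ∀ i : Fin k,
      ac r (Pi.single ⟨i.val, by omega⟩ 1) = Pi.single ⟨i.val, by omega⟩ 1 := by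
    rcases exists_pm h2 (by rw [hyy]; exact hy) hyw with h | h
    · refine ⟨rf a _ h, rf_mem h, Or.inl (rf_sub hyw h), fun i => rf_fix h ?_⟩
      rw [B_comm, B_sub_right, hyi, hwi, sub_zero]
    · refine ⟨rf a _ h, rf_mem h, Or.inr (rf_add hyw h), fun i => rf_fix h ?_⟩
      rw [B_comm, B_add_right, hyi, hwi, add_zero]
  obtain ⟨s, r', hsr⟩ := rep h2 hy (ha i2) ht
  set z0 : Fin n → K := Pi.single i0 (-(d * s)) + Pi.single i1 (c * s) + Pi.single i2 r' with hz0
  have hzi : ∀ i : Fin k, B a (Pi.single ⟨i.val, by omega⟩ 1) z0 = 0 := by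
    intro i
    rw [B_e ha1 (by show i.val + 1 < n; omega), hz0, Pi.add_apply, Pi.add_apply,
      Pi.single_eq_of_ne (hne i i0 le_rfl), Pi.single_eq_of_ne (hne i i1 (by simp [i1])),
      Pi.single_eq_of_ne (hne i i2 (by simp [i2])), add_zero, add_zero]
  have hwz : B a w z0 = 0 := by
    rw [hw, B_add_left, B_single, B_single, a0, a1, hz0]
    simp [h01, h01.symm, h02, h12]
    ring
  have hzz : B a z0 z0 = t := by
    rw [hz0, B_add_left, B_add_left, B_single, B_single, B_single, a0, a1, ← hsr, ← hcd]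
    simp [h01, h01.symm, h02, h02.symm, h12, h12.symm]
    ring
  have hrg : r * g ∈ OD a := mul_mem hr hg
  refine ⟨ac (r * g)⁻¹ z0, fun i => ?_, ?_, ?_⟩
  · rw [← OD_B hrg, ac_inv', ac_mul]
    rcases hgx i with h | h
    · rw [h, hri, hzi]
    · rw [h, ac_neg, hri, B_neg_left, hzi, neg_zero]
  · rw [← OD_B hrg, ac_inv', ac_mul, ← hy1]
    rcases hre with h | h
    · rw [h, hwz]
    · rw [h, B_neg_left, hwz, neg_zero]
  · rw [← OD_B hrg, ac_inv', hzz]

/-- `S` contains the products `r_u r_v` with `B(u,u) = B(v,v)` -/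
def Big (a : Fin n → K) (S : Subgroup (GL (Fin n) K)) : Prop :=
  ∀ (u v : Fin n → K) (hu : B a u u ≠ 0) (hv : B a v v ≠ 0), B a u u = B a v v →
    rf a u hu * rf a v hv ∈ S

/-- `S` is transitive on the orthonormal `k`-tuples up to signs, `k + 2 ≤ n` -/
theorem trans_tuples (h2 : (2 : K) ≠ 0) (ha : ∀ i, a i ≠ 0)
    (ha1 : ∀ i : Fin n, i.val + 1 < n → a i = 1) {S : Subgroup (GL (Fin n) K)} (hS : Big a S)
    (hSO : S ≤ OD a) : ∀ (k : ℕ) (_ : k + 2 ≤ n) (x x' : Fin k → Fin n → K), ON a x → ON a x' →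
      ∃ g ∈ S, ∀ i, ac g (x i) = x' i ∨ ac g (x i) = -x' i := by
  intro k
  induction k with
  | zero => exact fun _ _ _ _ _ => ⟨1, one_mem _, fun i => i.elim0⟩
  | succ k ih =>
    intro hk x x' hx hx'
    obtain ⟨g, hg, hgx⟩ := ih (by omega) _ _ hx.castSucc hx'.castSucc
    have hgO := hSO hg
    set v : Fin n → K := ac g (x (Fin.last k)) with hv
    set y : Fin n → K := x' (Fin.last k) with hy
    have hvv : B a v v = 1 := by rw [hv, OD_B hgO, hx, if_pos rfl]
    have hyy : B a y y = 1 := by rw [hy, hx', if_pos rfl]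
    have hvi : ∀ i : Fin k, B a (x' i.castSucc) v = 0 := by
      intro i
      have h3 : B a (ac g (x i.castSucc)) v = 0 := by
        rw [hv, OD_B hgO, hx, if_neg (Fin.castSucc_lt_last i).ne]
      rcases hgx i with h | h
      · rwa [h] at h3
      · rw [h, B_neg_left, neg_eq_zero] at h3; exact h3
    have hyi : ∀ i : Fin k, B a (x' i.castSucc) y = 0 := by
      intro i
      rw [hy, hx', if_neg (Fin.castSucc_lt_last i).ne]
    have hvy : B a v v = B a y y := by rw [hvv, hyy]
    obtain ⟨r, hr, hre, hri⟩ : ∃ r ∈ S, (ac r v = y ∨ ac r v = -y) ∧ ∀ i : Fin k,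
        ac r (x' i.castSucc) = x' i.castSucc := by
      rcases exists_pm h2 (by rw [hvv]; exact one_ne_zero) hvy with h | h
      · obtain ⟨z, hz, hzz⟩ := perp1 h2 ha ha1 hk hx' h
        have hz0 : B a z z ≠ 0 := by rw [hzz]; exact h
        refine ⟨rf a z hz0 * rf a _ h, hS _ _ _ _ hzz, Or.inl ?_, fun i => ?_⟩
        · rw [ac_mul, rf_sub hvy h, rf_fix hz0]
          rw [B_comm]; exact hz _
        · rw [ac_mul, rf_fix h, rf_fix hz0]
          · rw [B_comm]; exact hz _
          · rw [B_comm, B_sub_right, hvi, hyi, sub_zero]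
      · obtain ⟨z, hz, hzz⟩ := perp1 h2 ha ha1 hk hx' h
        have hz0 : B a z z ≠ 0 := by rw [hzz]; exact h
        refine ⟨rf a z hz0 * rf a _ h, hS _ _ _ _ hzz, Or.inr ?_, fun i => ?_⟩
        · rw [ac_mul, rf_add hvy h, ac_neg, rf_fix hz0]
          rw [B_comm]; exact hz _
        · rw [ac_mul, rf_fix h, rf_fix hz0]
          · rw [B_comm]; exact hz _
          · rw [B_comm, B_add_right, hvi, hyi, add_zero]
    refine ⟨r * g, mul_mem hr hg, fun i => ?_⟩
    refine Fin.lastCases ?_ (fun i => ?_) i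
    · rw [ac_mul]
      exact hre
    · rw [ac_mul]
      rcases hgx i with h | h
      · left
        rw [h]
        exact hri i
      · right
        rw [h, ac_neg, hri i]

end finite

end Vale.Agent.P240.R2.H145.EO
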