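import Vale.Agent.P240.R2.H145.EO2

/-!
Products of two reflections, the planes, and the basic lemma: the image of a line depends only on
the line and two more lines.
-/

set_option autoImplicit false

namespace Vale.Agent.P240.R2.H145.EO

open Matrix

universe u v

section pm

variable {K : Type u} [Field K] {n : ℕ}

lemma PM.refl (y : Fin n → K) : PM y y := Or.inl rfl

lemma PM.symm {y z : Fin n → K} (h : PM y z) : PM z y := by
  rcases h with h | h
  · exact Or.inl h.symm
  · exact Or.inr (by rw [h, neg_neg])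

lemma PM.trans {y z w : Fin n → K} (h : PM y z) (h' : PM z w) : PM y w := by
  rcases h with rfl | rfl
  · exact h'
  · rcases h' with rfl | rfl
    · exact Or.inr rfl
    · exact Or.inl (neg_neg _)

lemma PM.ac {y z : Fin n → K} (h : PM y z) (g : GL (Fin n) K) : PM (ac g y) (EO.ac g z) := by
  rcases h with rfl | rfl
  · exact PM.refl _
  · exact Or.inr (ac_neg _ _)

/-- the class of a vector up to sign -/
def pm (y : Fin n → K) : Set (Fin n → K) := {z | PM y z}

lemma pm_eq {y z : Fin n → K} : pm y = pm z ↔ PM y z := by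
  constructor
  · intro h
    have : z ∈ pm z := PM.refl z
    rw [← h] at this
    exact this
  · intro h
    ext w
    exact ⟨fun h' => h.symm.trans h', fun h' => h.trans h'⟩

lemma PM.B_self {a : Fin n → K} {y z : Fin n → K} (h : PM y z) : B a z z = B a y y := by
  rcases h with rfl | rfl
  · rfl
  · rw [B_neg_left, B_neg_right, neg_neg]

lemma PM.B_zero {a : Fin n → K} {y z w : Fin n → K} (h : PM y z) : B a z w = 0 ↔ B a y w = 0 := by
  rcases h with rfl | rfl
  · rfl
  · rw [B_neg_left, neg_eq_zero]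

lemma PM.B_zero' {a : Fin n → K} {y z w : Fin n → K} (h : PM y z) : B a w z = 0 ↔ B a w y = 0 := by
  rw [B_comm w z, B_comm w y]
  exact h.B_zero

end pm

section main

variable {K : Type u} [Field K] {n : ℕ} {a : Fin n → K}
variable {S : Subgroup (GL (Fin n) K)}

lemma S_ext {g h : S} (H : ∀ v, ac g.1 v = ac h.1 v) : g = h := Subtype.ext (gl_ext H)

/-- the product of two reflections -/
noncomputable def rr (hB : Big a S) (y z : Fin n → K) : S :=
  open Classical in
  if h : B a y y = 1 ∧ B a z z = 1 then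
    ⟨rf a y (by rw [h.1]; exact one_ne_zero) * rf a z (by rw [h.2]; exact one_ne_zero),
      hB _ _ _ _ (by rw [h.1, h.2])⟩
  else 1

lemma ac_rr (hB : Big a S) {y z : Fin n → K} (hy : B a y y = 1) (hz : B a z z = 1)
    (v : Fin n → K) : ac (rr hB y z).1 v =
      v - (2 * B a z v) • z - (2 * B a y v) • y + (4 * B a y z * B a z v) • y := by
  unfold rr
  rw [dif_pos ⟨hy, hz⟩]
  show ac (rf a y _ * rf a z _) v = _
  rw [ac_mul, ac_rf, ac_rf, hy, hz, B_sub_right, B_smul_right]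
  simp only [div_one]
  module

lemma rr_PM (hB : Big a S) {y z y' z' : Fin n → K} (hy : B a y y = 1) (hz : B a z z = 1)
    (hyy : PM y y') (hzz : PM z z') : rr hB y z = rr hB y' z' := by
  apply S_ext
  intro v
  rw [ac_rr hB hy hz, ac_rr hB (by rw [hyy.B_self, hy]) (by rw [hzz.B_self, hz])]
  rcases hyy with rfl | rfl <;> rcases hzz with rfl | rfl
  · rfl
  · simp only [B_neg_left, B_neg_right]; module
  · simp only [B_neg_left]; module
  · simp only [B_neg_left, B_neg_right]; module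

lemma rr_self (hB : Big a S) {y : Fin n → K} (hy : B a y y = 1) : rr hB y y = 1 := by
  apply S_ext
  intro v
  rw [ac_rr hB hy hy]
  show _ = ac 1 v
  rw [ac_one, hy]
  module

/-- the cocycle relation -/
lemma rr_mul (hB : Big a S) {y z w : Fin n → K} (hy : B a y y = 1) (hz : B a z z = 1)
    (hw : B a w w = 1) : rr hB y z * rr hB z w = rr hB y w := by
  apply Subtype.ext
  unfold rr
  rw [dif_pos ⟨hy, hz⟩, dif_pos ⟨hz, hw⟩, dif_pos ⟨hy, hw⟩]
  show rf a y _ * rf a z _ * (rf a z _ * rf a w _) = rf a y _ * rf a w _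
  rw [mul_assoc, ← mul_assoc (rf a z _), rf_rf, one_mul]

lemma rr_conj (hB : Big a S) (hO : S ≤ OD a) (g : S) {y z : Fin n → K} (hy : B a y y = 1)
    (hz : B a z z = 1) : g * rr hB y z * g⁻¹ = rr hB (ac g.1 y) (ac g.1 z) := by
  apply S_ext
  intro v
  have hg := hO g.2
  rw [ac_rr hB (by rw [OD_B hg, hy]) (by rw [OD_B hg, hz])]
  show ac (g.1 * (rr hB y z).1 * g.1⁻¹) v = _
  have h1 : v = ac g.1 (ac g.1⁻¹ v) := (ac_inv' _ _).symm
  set w := ac g.1⁻¹ v with hw
  rw [ac_mul, ac_mul, ← hw, ac_rr hB hy hz, ac_add, sub_eq_add_neg, sub_eq_add_neg, ac_add, ac_add, ac_neg,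
    ac_neg, ac_smul, ac_smul, ac_smul, h1, OD_B hg, OD_B hg, OD_B hg]
  module

/-- the hypotheses -/
structure Dat {G : Type v} [Group G] (a : Fin n → K) {S : Subgroup (GL (Fin n) K)} (ε : S →* G)
    (x : G) (τ : S → S) : Prop where
  h2 : (2 : K) ≠ 0
  hn : 6 ≤ n
  ha : ∀ i, a i ≠ 0
  ha1 : ∀ i : Fin n, i.val + 1 < n → a i = 1
  big : Big a S
  le : S ≤ OD a
  ker : Ker ε
  tau : ∀ g, x * ε g * x⁻¹ = ε (τ g)
  com : ∀ (i j : Fin n) (s : S), i.val + 1 < n → j.val + 1 < n → i ≠ j →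
      (∀ y, ac s.1 y = fun k => if k = i ∨ k = j then -y k else y k) → x * ε s = ε s * x

/-- the basis -/
def e (i : Fin n) : Fin n → K := Pi.single i 1

variable {G : Type v} [Group G] {ε : S →* G} {x : G} {τ : S → S}

lemma e_self (D : Dat a ε x τ) {i : Fin n} (hi : i.val + 1 < n) : B a (e i) (e i) = 1 := by
  rw [e, B_e D.ha1 hi, Pi.single_eq_same]

lemma e_ne {i j : Fin n} (hij : i ≠ j) : B a (e i) (e j) = 0 := by
  rw [e, e, B_single, Pi.single_eq_of_ne hij, mul_zero]

/-- a nonzero vector orthogonal to four vectors -/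
lemma exists_v0 (hn : 5 ≤ n) (a : Fin n → K) (y z y' z' : Fin n → K) :
    ∃ v : Fin n → K, v ≠ 0 ∧ B a y v = 0 ∧ B a z v = 0 ∧ B a y' v = 0 ∧ B a z' v = 0 := by
  let M : Matrix (Fin 4) (Fin n) K := Matrix.of ![a * y, a * z, a * y', a * z']
  have hker : LinearMap.ker M.mulVecLin ≠ ⊥ :=
    LinearMap.ker_ne_bot_of_finrank_lt (by simp; omega)
  obtain ⟨v, hv, hv0⟩ := Submodule.exists_mem_ne_zero_of_ne_bot hker
  refine ⟨v, hv0, congrFun (LinearMap.mem_ker.1 hv) 0, congrFun (LinearMap.mem_ker.1 hv) 1,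
    congrFun (LinearMap.mem_ker.1 hv) 2, congrFun (LinearMap.mem_ker.1 hv) 3⟩

lemma ker_scalar (D : Dat a ε x τ) {g h : S} (H : ε g = ε h) :
    ∃ l : K, ∀ v, ac g.1 v = l • ac h.1 v := by
  have h1 : ε (g * h⁻¹) = 1 := by rw [map_mul, map_inv, H, mul_inv_cancel]
  obtain ⟨l, hl⟩ := (D.ker _).1 h1
  refine ⟨l, fun v => ?_⟩
  have h2 : ac (g * h⁻¹).1 (ac h.1 v) = l • ac h.1 v := by
    show (g * h⁻¹).1.1 *ᵥ _ = _
    rw [hl, smul_mulVec, one_mulVec]
  rw [← h2]
  show _ = ac (g.1 * h.1⁻¹) (ac h.1 v)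
  rw [ac_mul, ac_inv]

/-- the classes of products of two reflections determine them -/
lemma rr_inj (D : Dat a ε x τ) {y z y' z' : Fin n → K} (hy : B a y y = 1) (hz : B a z z = 1)
    (hy' : B a y' y' = 1) (hz' : B a z' z' = 1) (H : ε (rr D.big y z) = ε (rr D.big y' z')) :
    rr D.big y z = rr D.big y' z' := by
  obtain ⟨l, hl⟩ := ker_scalar D H
  obtain ⟨v, hv0, h1, h2, h3, h4⟩ := exists_v0 (by have := D.hn; omega) a y z y' z'
  have h5 := hl v
  rw [ac_rr D.big hy hz, ac_rr D.big hy' hz', h1, h2, h3, h4] at h5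
  simp only [mul_zero, zero_smul, sub_zero, add_zero] at h5
  have h6 : l = 1 := by
    by_contra hne
    have h7 : (1 - l) • v = 0 := by rw [sub_smul, one_smul, ← h5, sub_self]
    rcases smul_eq_zero.1 h7 with h8 | h8
    · exact hne (sub_eq_zero.1 h8).symm
    · exact hv0 h8
  apply S_ext
  intro w
  rw [hl w, h6, one_smul]

lemma com_e (D : Dat a ε x τ) {i j : Fin n} (hi : i.val + 1 < n) (hj : j.val + 1 < n)
    (hij : i ≠ j) : x * ε (rr D.big (e i) (e j)) * x⁻¹ = ε (rr D.big (e i) (e j)) := by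
  rw [D.com i j _ hi hj hij, mul_inv_cancel_right]
  intro y
  rw [ac_rr D.big (e_self D hi) (e_self D hj), e_ne hij]
  have h1 : B a (e i) y = y i := B_e D.ha1 hi y
  have h2 : B a (e j) y = y j := B_e D.ha1 hj y
  rw [h1, h2]
  ext k
  simp only [Pi.add_apply, Pi.sub_apply, Pi.smul_apply, smul_eq_mul, e, Pi.single_apply]
  by_cases hk : k = i
  · subst hk
    rw [if_pos rfl, if_neg hij, if_pos (Or.inl rfl)]
    ring
  · by_cases hk' : k = j
    · subst hk'
      rw [if_neg hk, if_pos rfl, if_pos (Or.inr rfl)]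
      ring
    · rw [if_neg hk, if_neg hk', if_neg (by tauto)]
      ring

lemma conj_e (D : Dat a ε x τ) (g : S) {i j : Fin n} (hi : i.val + 1 < n) (hj : j.val + 1 < n)
    (hij : i ≠ j) : x * ε (rr D.big (ac g.1 (e i)) (ac g.1 (e j))) * x⁻¹ =
      ε (rr D.big (ac (τ g).1 (e i)) (ac (τ g).1 (e j))) := by
  have h1 : ∀ b c d : G, b * (c * d * c⁻¹) * b⁻¹ = (b * c * b⁻¹) * (b * d * b⁻¹) * (b * c * b⁻¹)⁻¹ := by
    intro b c d; group
  rw [← rr_conj D.big D.le g (e_self D hi) (e_self D hj),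
    ← rr_conj D.big D.le (τ g) (e_self D hi) (e_self D hj), map_mul, map_mul, map_mul, map_mul,
    map_inv, map_inv, h1, D.tau g, com_e D hi hj hij]

/-- equality of the planes -/
lemma plane_eq (D : Dat a ε x τ) {y z y' z' : Fin n → K} (hy : B a y y = 1) (hz : B a z z = 1)
    (hy' : B a y' y' = 1) (hz' : B a z' z' = 1) (hyz : B a y z = 0) (hyz' : B a y' z' = 0)
    (H : rr D.big y z = rr D.big y' z') (v : Fin n → K) :
    B a y v • y + B a z v • z = B a y' v • y' + B a z' v • z' := by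
  have h1 := ac_rr D.big hy hz v
  have h2 := ac_rr D.big hy' hz' v
  rw [H, h2, hyz, hyz'] at h1
  have h3 : (2 : K) • (B a y v • y + B a z v • z) = (2 : K) • (B a y' v • y' + B a z' v • z') := by
    have h4 : (2 : K) • (B a y v • y + B a z v • z) =
        v - (v - (2 * B a z v) • z - (2 * B a y v) • y + (4 * 0 * B a z v) • y) := by module
    rw [h4, ← h1]
    module
  exact smul_right_injective _ D.h2 h3

/-- **the basic lemma** -/
lemma key (D : Dat a ε x τ) {g g' : S} {i j k i' j' k' : Fin n} (hi : i.val + 1 < n)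
    (hj : j.val + 1 < n) (hk : k.val + 1 < n) (hi' : i'.val + 1 < n) (hj' : j'.val + 1 < n)
    (hk' : k'.val + 1 < n) (hij : i ≠ j) (hik : i ≠ k) (hjk : j ≠ k) (hij' : i' ≠ j')
    (hik' : i' ≠ k') (h1 : PM (ac g.1 (e i)) (ac g'.1 (e i')))
    (h2 : PM (ac g.1 (e j)) (ac g'.1 (e j'))) (h3 : PM (ac g.1 (e k)) (ac g'.1 (e k'))) :
    PM (ac (τ g).1 (e i)) (ac (τ g').1 (e i')) := by
  have hu : ∀ (h : S) {l : Fin n}, l.val + 1 < n → B a (ac h.1 (e l)) (ac h.1 (e l)) = 1 :=
    fun h l hl => by rw [OD_B (D.le h.2), e_self D hl]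
  have ho : ∀ (h : S) {l m : Fin n}, l ≠ m → B a (ac h.1 (e l)) (ac h.1 (e m)) = 0 :=
    fun h l m hlm => by rw [OD_B (D.le h.2), e_ne hlm]
  -- the planes
  have key2 : ∀ {j j' : Fin n}, j.val + 1 < n → j'.val + 1 < n → i ≠ j → i' ≠ j' →
      PM (ac g.1 (e j)) (ac g'.1 (e j')) → ∀ v, B a (ac (τ g).1 (e i)) v • ac (τ g).1 (e i) +
        B a (ac (τ g).1 (e j)) v • ac (τ g).1 (e j) =
        B a (ac (τ g').1 (e i')) v • ac (τ g').1 (e i') +
        B a (ac (τ g').1 (e j')) v • ac (τ g').1 (e j') := by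
    intro j j' hj hj' hij hij' h2
    apply plane_eq D (hu _ hi) (hu _ hj) (hu _ hi') (hu _ hj') (ho _ hij) (ho _ hij')
    apply rr_inj D (hu _ hi) (hu _ hj) (hu _ hi') (hu _ hj')
    rw [← conj_e D g hi hj hij, ← conj_e D g' hi' hj' hij', rr_PM D.big (hu _ hi) (hu _ hj) h1 h2]
  set Y := ac (τ g).1 (e i) with hY
  set Z := ac (τ g).1 (e j) with hZ
  set W := ac (τ g).1 (e k) with hW
  set Y' := ac (τ g').1 (e i') with hY'
  have p1 := key2 hj hj' hij hij' h2 Y'
  have p2 := key2 hk hk' hik hik' h3 Y'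
  have e1 : B a Y' Y' = 1 := hu _ hi'
  have e2 : B a (ac (τ g').1 (e j')) Y' = 0 := by rw [B_comm]; exact ho _ hij'
  have e3 : B a (ac (τ g').1 (e k')) Y' = 0 := by rw [B_comm]; exact ho _ hik'
  rw [e1, e2, zero_smul, add_zero, one_smul] at p1
  rw [e1, e3, zero_smul, add_zero, one_smul] at p2
  have q1 := congrArg (B a Z) p1
  have q2 := congrArg (B a Z) p2
  have e4 : B a Z Y = 0 := by rw [B_comm]; exact ho _ hij
  have e5 : B a Z Z = 1 := hu _ hj
  have e6 : B a Z W = 0 := ho _ hjk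
  rw [B_add_right, B_smul_right, B_smul_right, e4, e5, mul_zero, mul_one, zero_add] at q1
  rw [B_add_right, B_smul_right, B_smul_right, e4, e6, mul_zero, mul_zero, zero_add] at q2
  -- `B Z Y' = 0`
  rw [← q2, zero_smul, add_zero] at p1
  have q3 := congrArg (fun w => B a w w) p1
  simp only [B_smul_left, B_smul_right] at q3
  rw [e1, show B a Y Y = 1 from hu _ hi] at q3
  have q4 : (B a Y Y' - 1) * (B a Y Y' + 1) = 0 := by linear_combination q3
  rcases mul_eq_zero.1 q4 with q5 | q5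
  · left
    rw [← p1, sub_eq_zero.1 q5, one_smul]
  · right
    rw [← p1, eq_neg_of_add_eq_zero_left q5, neg_smul, one_smul]

end main

end Vale.Agent.P240.R2.H145.EO
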