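import Vale.Agent.P240.R2.H145.EO3

/-!
The map on the unit vectors.
-/

set_option autoImplicit false

namespace Vale.Agent.P240.R2.H145.EO

open Matrix

universe u v

/-- connectedness of the graph of unit vectors (owner 829) -/
def StmtConn : Prop :=
  ∀ (K : Type u) [Field K] [Fintype K], (2 : K) ≠ 0 → 5 < Fintype.card K → ∀ (n : ℕ)
    (a : Fin n → K), (∀ i, a i ≠ 0) → (∀ i : Fin n, i.val + 1 < n → a i = 1) →
    ∀ (k : ℕ), k + 4 ≤ n → ∀ (x : Fin k → Fin n → K), ON a x →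
    ∀ (T : Type u) (F : (Fin n → K) → T),
    (∀ y z, B a y y = 1 → B a z z = 1 → (∀ i, B a (x i) y = 0) → (∀ i, B a (x i) z = 0) →
      B a y z = 0 → F y = F z) →
    ∀ y z : Fin n → K, B a y y = 1 → B a z z = 1 → (∀ i, B a (x i) y = 0) →
      (∀ i, B a (x i) z = 0) → F y = F z

section main

variable {K : Type u} [Field K] [Fintype K] {n : ℕ} {a : Fin n → K}
variable {S : Subgroup (GL (Fin n) K)}
variable {G : Type v} [Group G] {ε : S →* G} {x : G} {τ : S → S}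

/-- the first indices -/
def ix (hn : 6 ≤ n) (k : Fin 4) : Fin n := ⟨k.val, by omega⟩

omit [Fintype K] in
lemma ix_lt (hn : 6 ≤ n) (k : Fin 4) : (ix hn k).val + 1 < n := by
  show k.val + 1 < n
  omega

lemma ix_ne (hn : 6 ≤ n) {k l : Fin 4} (h : k ≠ l) : ix hn k ≠ ix hn l := by
  intro h'
  have h1 := congrArg Fin.val h'
  exact h (Fin.ext h1)

lemma exists_jk (hn : 6 ≤ n) (i : Fin n) : ∃ j k : Fin n, j.val + 1 < n ∧ k.val + 1 < n ∧ i ≠ j ∧
    i ≠ k ∧ j ≠ k := by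
  by_cases h0 : i.val = 0
  · refine ⟨ix hn 1, ix hn 2, ix_lt hn 1, ix_lt hn 2, ?_, ?_, ix_ne hn (by decide)⟩
    · intro h; rw [h] at h0; exact absurd h0 (by show ¬ (1 = 0); omega)
    · intro h; rw [h] at h0; exact absurd h0 (by show ¬ (2 = 0); omega)
  · by_cases h1 : i.val = 1
    · refine ⟨ix hn 0, ix hn 2, ix_lt hn 0, ix_lt hn 2, ?_, ?_, ix_ne hn (by decide)⟩
      · intro h; rw [h] at h1; exact absurd h1 (by show ¬ (0 = 1); omega)
      · intro h; rw [h] at h1; exact absurd h1 (by show ¬ (2 = 1); omega)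
    · refine ⟨ix hn 0, ix hn 1, ix_lt hn 0, ix_lt hn 1, ?_, ?_, ix_ne hn (by decide)⟩
      · intro h; rw [h] at h0; exact h0 rfl
      · intro h; rw [h] at h1; exact h1 rfl

omit [Fintype K] in
lemma on3 {P Q R : Fin n → K} (hP : B a P P = 1) (hQ : B a Q Q = 1) (hR : B a R R = 1)
    (hPQ : B a P Q = 0) (hPR : B a P R = 0) (hQR : B a Q R = 0) : ON a ![P, Q, R] := by
  have hQP : B a Q P = 0 := by rw [B_comm]; exact hPQ
  have hRP : B a R P = 0 := by rw [B_comm]; exact hPR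
  have hRQ : B a R Q = 0 := by rw [B_comm]; exact hQR
  intro i j
  fin_cases i <;> fin_cases j <;> simp [*]

omit [Fintype K] in
lemma on4 {P Q R W : Fin n → K} (hP : B a P P = 1) (hQ : B a Q Q = 1) (hR : B a R R = 1)
    (hW : B a W W = 1) (hPQ : B a P Q = 0) (hPR : B a P R = 0) (hQR : B a Q R = 0)
    (hPW : B a P W = 0) (hQW : B a Q W = 0) (hRW : B a R W = 0) : ON a ![P, Q, R, W] := by
  have hQP : B a Q P = 0 := by rw [B_comm]; exact hPQ
  have hRP : B a R P = 0 := by rw [B_comm]; exact hPR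
  have hRQ : B a R Q = 0 := by rw [B_comm]; exact hQR
  have hWP : B a W P = 0 := by rw [B_comm]; exact hPW
  have hWQ : B a W Q = 0 := by rw [B_comm]; exact hQW
  have hWR : B a W R = 0 := by rw [B_comm]; exact hRW
  intro i j
  fin_cases i <;> fin_cases j <;> simp [*]

omit [Fintype K] in
lemma on2 {P Q : Fin n → K} (hP : B a P P = 1) (hQ : B a Q Q = 1)
    (hPQ : B a P Q = 0) : ON a ![P, Q] := by
  have hQP : B a Q P = 0 := by rw [B_comm]; exact hPQ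
  intro i j
  fin_cases i <;> fin_cases j <;> simp [*]

omit [Fintype K] in
lemma on1 {P : Fin n → K} (hP : B a P P = 1) : ON a ![P] := by
  intro i j
  fin_cases i
  fin_cases j
  simp [*]

lemma exists_g (D : Dat a ε x τ) {k : ℕ} (hk : k + 2 ≤ n) {y : Fin k → Fin n → K} (hy : ON a y) :
    ∃ g : S, ∀ i : Fin k, PM (ac g.1 (e ⟨i.val, by omega⟩)) (y i) := by
  have hst : ON a (fun i : Fin k => e (K := K) (⟨i.val, by omega⟩ : Fin n)) := by
    intro i j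
    by_cases h : i = j
    · subst h
      rw [if_pos rfl]
      exact e_self D (by show i.val + 1 < n; omega)
    · rw [if_neg h]
      refine e_ne ?_
      intro h'
      have := congrArg Fin.val h'
      exact h (Fin.ext this)
  obtain ⟨g, hg, h⟩ := trans_tuples D.h2 D.ha D.ha1 D.big D.le k hk _ y hst hy
  refine ⟨⟨g, hg⟩, fun i => ?_⟩
  rcases h i with h' | h'
  · exact Or.inl h'.symm
  · exact Or.inr (by rw [h', neg_neg])

lemma exists_g3 (D : Dat a ε x τ) {P Q R : Fin n → K} (h : ON a ![P, Q, R]) : ∃ g : S,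
    PM (ac g.1 (e (ix D.hn 0))) P ∧ PM (ac g.1 (e (ix D.hn 1))) Q ∧
    PM (ac g.1 (e (ix D.hn 2))) R := by
  obtain ⟨g, hg⟩ := exists_g D (by have := D.hn; omega) h
  exact ⟨g, hg 0, hg 1, hg 2⟩

lemma exists_g4 (D : Dat a ε x τ) {P Q R W : Fin n → K} (h : ON a ![P, Q, R, W]) : ∃ g : S,
    PM (ac g.1 (e (ix D.hn 0))) P ∧ PM (ac g.1 (e (ix D.hn 1))) Q ∧
    PM (ac g.1 (e (ix D.hn 2))) R ∧ PM (ac g.1 (e (ix D.hn 3))) W := by
  obtain ⟨g, hg⟩ := exists_g D (by have := D.hn; omega) h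
  exact ⟨g, hg 0, hg 1, hg 2, hg 3⟩

/-- the image of the line of `P`, with the help of `Q` and `R` -/
def Phi (hn : 6 ≤ n) (τ : S → S) (P Q R : Fin n → K) : Set (Fin n → K) :=
  {Y | ∃ g : S, PM (ac g.1 (e (ix hn 0))) P ∧ PM (ac g.1 (e (ix hn 1))) Q ∧
    PM (ac g.1 (e (ix hn 2))) R ∧ PM (ac (τ g).1 (e (ix hn 0))) Y}

lemma Phi_gen (D : Dat a ε x τ) {g : S} {i j k : Fin n} (hi : i.val + 1 < n)
    (hj : j.val + 1 < n) (hk : k.val + 1 < n) (hij : i ≠ j) (hik : i ≠ k) (hjk : j ≠ k)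
    {P Q R : Fin n → K} (h1 : PM (ac g.1 (e i)) P) (h2 : PM (ac g.1 (e j)) Q)
    (h3 : PM (ac g.1 (e k)) R) : Phi D.hn τ P Q R = pm (ac (τ g).1 (e i)) := by
  have key0 : ∀ g' : S, PM (ac g'.1 (e (ix D.hn 0))) P → PM (ac g'.1 (e (ix D.hn 1))) Q →
      PM (ac g'.1 (e (ix D.hn 2))) R → PM (ac (τ g).1 (e i)) (ac (τ g').1 (e (ix D.hn 0))) :=
    fun g' h1' h2' h3' => key D hi hj hk (ix_lt _ _) (ix_lt _ _) (ix_lt _ _) hij hik hjk
      (ix_ne D.hn (by decide)) (ix_ne D.hn (by decide)) (h1.trans h1'.symm) (h2.trans h2'.symm)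
      (h3.trans h3'.symm)
  ext Y
  constructor
  · rintro ⟨g', h1', h2', h3', h4'⟩
    exact (key0 g' h1' h2' h3').trans h4'
  · intro hY
    have hO := D.le g.2
    have hu : ∀ {l : Fin n}, l.val + 1 < n → B a (ac g.1 (e l)) (ac g.1 (e l)) = 1 :=
      fun hl => by rw [OD_B hO, e_self D hl]
    have ho : ∀ {l m : Fin n}, l ≠ m → B a (ac g.1 (e l)) (ac g.1 (e m)) = 0 :=
      fun hlm => by rw [OD_B hO, e_ne hlm]
    obtain ⟨g', h1', h2', h3'⟩ := exists_g3 D (P := P) (Q := Q) (R := R)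
      (on3 (by rw [h1.B_self, hu hi]) (by rw [h2.B_self, hu hj]) (by rw [h3.B_self, hu hk])
        (h1.B_zero.2 (h2.B_zero'.2 (ho hij))) (h1.B_zero.2 (h3.B_zero'.2 (ho hik)))
        (h2.B_zero.2 (h3.B_zero'.2 (ho hjk))))
    exact ⟨g', h1', h2', h3', (key0 g' h1' h2' h3').symm.trans hY⟩

lemma Phi_symm (D : Dat a ε x τ) {P Q R : Fin n → K} (h : ON a ![P, Q, R]) :
    Phi D.hn τ P Q R = Phi D.hn τ P R Q := by
  obtain ⟨g, h1, h2, h3⟩ := exists_g3 D h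
  rw [Phi_gen D (ix_lt _ _) (ix_lt _ _) (ix_lt _ _) (ix_ne D.hn (by decide))
    (ix_ne D.hn (by decide)) (ix_ne D.hn (by decide)) h1 h2 h3,
    Phi_gen D (ix_lt _ _) (ix_lt _ _) (ix_lt _ _) (ix_ne D.hn (by decide))
    (ix_ne D.hn (by decide)) (ix_ne D.hn (by decide)) h1 h3 h2]

lemma Phi_tri (D : Dat a ε x τ) {P Q R W : Fin n → K} (h : ON a ![P, Q, R, W]) :
    Phi D.hn τ P Q R = Phi D.hn τ P Q W := by
  obtain ⟨g, h1, h2, h3, h4⟩ := exists_g4 D h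
  rw [Phi_gen D (ix_lt _ _) (ix_lt _ _) (ix_lt _ _) (ix_ne D.hn (by decide))
    (ix_ne D.hn (by decide)) (ix_ne D.hn (by decide)) h1 h2 h3,
    Phi_gen D (ix_lt _ _) (ix_lt _ _) (ix_lt _ _) (ix_ne D.hn (by decide))
    (ix_ne D.hn (by decide)) (ix_ne D.hn (by decide)) h1 h2 h4]

section conn

variable (hc : StmtConn.{u}) (h5 : 5 < Fintype.card K)
include hc h5

lemma indepA (D : Dat a ε x τ) {P Q R R' : Fin n → K} (hP : B a P P = 1) (hQ : B a Q Q = 1)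
    (hPQ : B a P Q = 0) (hR : B a R R = 1) (hPR : B a P R = 0) (hQR : B a Q R = 0)
    (hR' : B a R' R' = 1) (hPR' : B a P R' = 0) (hQR' : B a Q R' = 0) :
    Phi D.hn τ P Q R = Phi D.hn τ P Q R' := by
  refine hc K D.h2 h5 n a D.ha D.ha1 2 (by have := D.hn; omega) ![P, Q] (on2 hP hQ hPQ) _
    (fun R => Phi D.hn τ P Q R) ?_ R R' hR hR' ?_ ?_
  · intro y z hy hz hxy hxz hyz
    exact Phi_tri D (on4 hP hQ hy hz hPQ (hxy 0) (hxy 1) (hxz 0) (hxz 1) hyz)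
  · intro i
    fin_cases i
    · exact hPR
    · exact hQR
  · intro i
    fin_cases i
    · exact hPR'
    · exact hQR'

omit hc h5 in
lemma exists_third (D : Dat a ε x τ) {P Q : Fin n → K} (hP : B a P P = 1) (hQ : B a Q Q = 1)
    (hPQ : B a P Q = 0) : ∃ R, B a R R = 1 ∧ B a P R = 0 ∧ B a Q R = 0 := by
  obtain ⟨R, h1, h2⟩ := perp1 D.h2 D.ha D.ha1 (by have := D.hn; omega) (on2 hP hQ hPQ)
    (one_ne_zero (α := K))
  exact ⟨R, h2, h1 0, h1 1⟩

lemma indep (D : Dat a ε x τ) {P Q R Q' R' : Fin n → K} (hP : B a P P = 1) (hQ : B a Q Q = 1)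
    (hPQ : B a P Q = 0) (hR : B a R R = 1) (hPR : B a P R = 0) (hQR : B a Q R = 0)
    (hQ' : B a Q' Q' = 1) (hPQ' : B a P Q' = 0)
    (hR' : B a R' R' = 1) (hPR' : B a P R' = 0) (hQR' : B a Q' R' = 0) :
    Phi D.hn τ P Q R = Phi D.hn τ P Q' R' := by
  let F : (Fin n → K) → Set (Fin n → K) := fun Q =>
    {Y | ∃ R, B a R R = 1 ∧ B a P R = 0 ∧ B a Q R = 0 ∧ Y ∈ Phi D.hn τ P Q R}
  have hF : ∀ Q R, B a Q Q = 1 → B a P Q = 0 → B a R R = 1 → B a P R = 0 → B a Q R = 0 →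
      F Q = Phi D.hn τ P Q R := by
    intro Q R hQ hPQ hR hPR hQR
    ext Y
    constructor
    · rintro ⟨R1, h1, h2, h3, h4⟩
      rwa [indepA hc h5 D hP hQ hPQ hR hPR hQR h1 h2 h3]
    · intro hY
      exact ⟨R, hR, hPR, hQR, hY⟩
  rw [← hF Q R hQ hPQ hR hPR hQR, ← hF Q' R' hQ' hPQ' hR' hPR' hQR']
  refine hc K D.h2 h5 n a D.ha D.ha1 1 (by have := D.hn; omega) ![P] (on1 hP) _ F ?_ Q Q' hQ hQ'
    ?_ ?_
  · intro y z hy hz hxy hxz hyz
    have hPy : B a P y = 0 := hxy 0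
    have hPz : B a P z = 0 := hxz 0
    rw [hF y z hy hPy hz hPz hyz, hF z y hz hPz hy hPy (by rw [B_comm]; exact hyz)]
    exact Phi_symm D (on3 hP hy hz hPy hPz hyz)
  · intro i
    fin_cases i
    exact hPQ
  · intro i
    fin_cases i
    exact hPQ'

/-- the image of a line depends on the line only -/
lemma line_wd (D : Dat a ε x τ) {g g' : S} {i i' : Fin n} (hi : i.val + 1 < n)
    (hi' : i'.val + 1 < n) (h : PM (ac g.1 (e i)) (ac g'.1 (e i'))) :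
    PM (ac (τ g).1 (e i)) (ac (τ g').1 (e i')) := by
  obtain ⟨j, k, hj, hk, hij, hik, hjk⟩ := exists_jk D.hn i
  obtain ⟨j', k', hj', hk', hij', hik', hjk'⟩ := exists_jk D.hn i'
  have hu : ∀ (g : S) {l : Fin n}, l.val + 1 < n → B a (ac g.1 (e l)) (ac g.1 (e l)) = 1 :=
    fun g l hl => by rw [OD_B (D.le g.2), e_self D hl]
  have ho : ∀ (g : S) {l m : Fin n}, l ≠ m → B a (ac g.1 (e l)) (ac g.1 (e m)) = 0 :=
    fun g l m hlm => by rw [OD_B (D.le g.2), e_ne hlm]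
  rw [← pm_eq, ← Phi_gen D hi hj hk hij hik hjk (PM.refl _) (PM.refl _) (PM.refl _),
    ← Phi_gen D hi' hj' hk' hij' hik' hjk' h.symm (PM.refl _) (PM.refl _)]
  exact indep hc h5 D (hu g hi) (hu g hj) (ho g hij) (hu g hk) (ho g hik) (ho g hjk) (hu g' hj')
    (h.symm.B_zero.2 (ho g' hij')) (hu g' hk') (h.symm.B_zero.2 (ho g' hik')) (ho g' hjk')

end conn

end main

end Vale.Agent.P240.R2.H145.EO
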