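import Vale.Agent.P240.R2.H145.EO4

/-!
`StmtEOF`: the map on the unit vectors and its properties.
-/

set_option autoImplicit false

namespace Vale.Agent.P240.R2.H145.EO

open Matrix

universe u v

section pow

variable {K : Type u} [Field K] {n : ℕ} {a : Fin n → K}
variable {S : Subgroup (GL (Fin n) K)}

/-- products of two reflections and the characteristic -/
lemma rr_pow {G : Type v} [Group G] {ε : S →* G} {x : G} {τ : S → S} (D : Dat a ε x τ) {p : ℕ}
    [Fact p.Prime] [CharP K p] (hp : 3 ≤ p) {y z : Fin n → K} (hy : B a y y = 1)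
    (hz : B a z z = 1) : ε (rr D.big y z) ^ p = 1 ↔ B a y z ^ 2 = 1 := by
  have hn := D.hn
  haveI : Nonempty (Fin n) := ⟨⟨0, by omega⟩⟩
  set M : Matrix (Fin n) (Fin n) K := (rr D.big y z).1.1 with hM
  set c : K := B a y z with hc
  have hMv : ∀ v, M *ᵥ v = v - (2 * B a z v) • z - (2 * B a y v) • y + (4 * c * B a z v) • y :=
    fun v => ac_rr D.big hy hz v
  have hMy : M *ᵥ y = (4 * c ^ 2 - 1) • y - (2 * c) • z := by
    rw [hMv, hy, B_comm z y, ← hc]; module
  have hMz : M *ᵥ z = (2 * c) • y - z := by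
    rw [hMv, hz, ← hc]; module
  have hMMy : M *ᵥ (M *ᵥ y) = (4 * c ^ 2 - 1) • (M *ᵥ y) - (2 * c) • (M *ᵥ z) := by
    rw [hMy, mulVec_sub, mulVec_smul, mulVec_smul, ← hMy]
  have hMMz : M *ᵥ (M *ᵥ z) = (2 * c) • (M *ᵥ y) - M *ᵥ z := by
    rw [hMz, mulVec_sub, mulVec_smul, ← hMz]
  have hNy : (M - 1) *ᵥ ((M - 1) *ᵥ y) = (4 * (c ^ 2 - 1)) • (M *ᵥ y) := by
    rw [sub_mulVec, sub_mulVec, one_mulVec, one_mulVec, mulVec_sub, hMMy, hMz, hMy]; module
  have hNz : (M - 1) *ᵥ ((M - 1) *ᵥ z) = (4 * (c ^ 2 - 1)) • (M *ᵥ z) := by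
    rw [sub_mulVec, sub_mulVec, one_mulVec, one_mulVec, mulVec_sub, hMMz, hMz, hMy]; module
  have hpow : (M - 1) ^ p = M ^ p - 1 := by
    rw [sub_pow_char_of_commute (p := p) (Commute.one_right M), one_pow]
  have hMp : ((rr D.big y z) ^ p).1.1 = M ^ p := by
    rw [SubgroupClass.coe_pow, Units.val_pow_eq_pow_val]
  rw [← map_pow, D.ker, hMp]
  constructor
  · rintro ⟨l, hl⟩
    -- `l = 1`
    obtain ⟨v, hv0, h1, h2, _, _⟩ := exists_v0 (by omega) a y z y z
    have hv : M *ᵥ v = v := by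
      rw [hMv, h1, h2]; module
    have hvk : ∀ k : ℕ, M ^ k *ᵥ v = v := by
      intro k
      induction k with
      | zero => rw [pow_zero, one_mulVec]
      | succ k ih => rw [pow_succ, ← mulVec_mulVec, hv, ih]
    have hl1 : l = 1 := by
      have h3 := hvk p
      rw [hl, smul_mulVec, one_mulVec] at h3
      by_contra hne
      have h4 : (l - 1) • v = 0 := by rw [sub_smul, one_smul, h3, sub_self]
      rcases smul_eq_zero.1 h4 with h5 | h5
      · exact hne (sub_eq_zero.1 h5)
      · exact hv0 h5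
    have h0 : (M - 1) ^ p = 0 := by rw [hpow, hl, hl1, one_smul, sub_self]
    -- powers of `(M - 1) ^ 2` on `y`
    have hcomm : ∀ v : Fin n → K, ∀ k : ℕ, (M - 1) ^ k *ᵥ (M *ᵥ v) = M *ᵥ ((M - 1) ^ k *ᵥ v) := by
      intro v k
      rw [mulVec_mulVec, mulVec_mulVec]
      congr 1
      exact (((Commute.refl M).sub_left (Commute.one_left M)).pow_left k)
    have hk : ∀ k : ℕ, (M - 1) ^ (2 * k) *ᵥ y = (4 * (c ^ 2 - 1)) ^ k • (M ^ k *ᵥ y) := by
      intro k
      induction k with
      | zero => rw [mul_zero, pow_zero, pow_zero, pow_zero, one_smul]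
      | succ k ih =>
        have h6 : (M - 1) ^ (2 * (k + 1)) = (M - 1) ^ (2 * k) * ((M - 1) * (M - 1)) := by
          rw [mul_add, mul_one, pow_add, pow_two (M - 1)]
        rw [h6, ← mulVec_mulVec, ← mulVec_mulVec, hNy, mulVec_smul, hcomm, ih, mulVec_smul,
          mulVec_mulVec, ← pow_succ', smul_smul, ← pow_succ']
    have h7 := hk p
    have h8 : (M - 1) ^ (2 * p) = 0 := by rw [two_mul, pow_add, h0, zero_mul]
    rw [h8, zero_mulVec] at h7
    have h9 : M ^ p *ᵥ y ≠ 0 := by
      intro h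
      rw [hl, hl1, one_smul, one_mulVec] at h
      rw [h] at hy
      simp [B] at hy
    have h10 := (smul_eq_zero.1 h7.symm).resolve_right h9
    have h11 := pow_eq_zero_iff (Fact.out : p.Prime).ne_zero |>.1 h10
    have h4 : (4 : K) ≠ 0 := by
      have : (4 : K) = 2 * 2 := by norm_num
      rw [this]; exact mul_ne_zero D.h2 D.h2
    exact sub_eq_zero.1 ((mul_eq_zero.1 h11).resolve_left h4)
  · intro h
    refine ⟨1, ?_⟩
    rw [one_smul]
    have h3 : (M - 1) ^ 3 = 0 := by
      apply Matrix.ext_of_mulVec_single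
      intro i
      have h4 : (M - 1) *ᵥ Pi.single i 1 = (4 * c * B a z (Pi.single i 1) -
          2 * B a y (Pi.single i 1)) • y - (2 * B a z (Pi.single i 1)) • z := by
        rw [sub_mulVec, one_mulVec, hMv]; module
      rw [pow_succ, pow_two, ← mulVec_mulVec, ← mulVec_mulVec, h4, mulVec_sub, mulVec_sub,
        mulVec_smul, mulVec_smul, mulVec_smul, mulVec_smul, hNy, hNz, h, sub_self, mul_zero,
        zero_smul, zero_smul, smul_zero, smul_zero, sub_zero, zero_mulVec]
    have h0 : (M - 1) ^ p = 0 := by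
      obtain ⟨m, rfl⟩ := Nat.exists_eq_add_of_le hp
      rw [pow_add, h3, zero_mul]
    rw [hpow] at h0
    exact sub_eq_zero.1 h0

/-- commuting reflections -/
lemma rr_sq {G : Type v} [Group G] {ε : S →* G} {x : G} {τ : S → S} (D : Dat a ε x τ)
    {y z : Fin n → K} (hy : B a y y = 1) (hz : B a z z = 1) :
    ε (rr D.big y z) ^ 2 = 1 ↔ B a y z = 0 ∨ PM y z := by
  constructor
  · intro h
    have h1 : ε (rr D.big y z) = ε (rr D.big z y) := by
      have h2 : ε (rr D.big y z) * ε (rr D.big z y) = 1 := by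
        rw [← map_mul, rr_mul D.big hy hz hy, rr_self D.big hy, map_one]
      rw [pow_two] at h
      exact mul_left_cancel (h.trans h2.symm)
    have h2 := rr_inj D hy hz hz hy h1
    have h3 := ac_rr D.big hy hz y
    rw [h2, ac_rr D.big hz hy, hy, B_comm z y] at h3
    set c := B a y z with hc
    have h4 : (4 * c) • (c • y - z) = 0 := by
      have h5 : (4 * c) • (c • y - z) =
        (y - (2 * c) • z - (2 * 1 : K) • y + (4 * c * c) • y) -
        (y - (2 * 1 : K) • y - (2 * c) • z + (4 * c * 1) • z) := by module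
      rw [h5, h3, sub_self]
    rcases smul_eq_zero.1 h4 with h5 | h5
    · left
      have h6 : (4 : K) ≠ 0 := by
        have : (4 : K) = 2 * 2 := by norm_num
        rw [this]; exact mul_ne_zero D.h2 D.h2
      exact (mul_eq_zero.1 h5).resolve_left h6
    · right
      have h6 : z = c • y := (sub_eq_zero.1 h5).symm
      have h7 : c * c = 1 := by
        rw [h6, B_smul_left, B_smul_right, hy, mul_one] at hz
        exact hz
      have h8 : (c - 1) * (c + 1) = 0 := by linear_combination h7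
      rcases mul_eq_zero.1 h8 with h9 | h9
      · left
        rw [h6, sub_eq_zero.1 h9, one_smul]
      · right
        rw [h6, eq_neg_of_add_eq_zero_left h9, neg_smul, one_smul]
  · rintro (h | h)
    · have h1 : rr D.big y z = rr D.big z y := by
        apply S_ext
        intro v
        rw [ac_rr D.big hy hz, ac_rr D.big hz hy, B_comm z y, h]
        module
      rw [pow_two]
      nth_rewrite 2 [h1]
      rw [← map_mul, rr_mul D.big hy hz hy, rr_self D.big hy, map_one]
    · rw [← rr_PM D.big hy hy (PM.refl y) h, rr_self D.big hy, map_one, one_pow]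

/-- the product of two reflections is trivial only for equal lines -/
lemma rr_one {G : Type v} [Group G] {ε : S →* G} {x : G} {τ : S → S} (D : Dat a ε x τ)
    {y z : Fin n → K} (hy : B a y y = 1) (hz : B a z z = 1) :
    ε (rr D.big y z) = 1 ↔ PM y z := by
  constructor
  · intro h
    rcases (rr_sq D hy hz).1 (by rw [h, one_pow]) with h1 | h1
    · exfalso
      have h2 : ε (rr D.big y z) = ε (rr D.big y y) := by rw [h, rr_self D.big hy, map_one]
      have h3 := rr_inj D hy hz hy hy h2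
      have h4 := ac_rr D.big hy hz z
      rw [h3, rr_self D.big hy, hz, h1] at h4
      have h5 : ac (1 : S).1 z = z := ac_one z
      rw [h5] at h4
      have h6 : (2 : K) • z = 0 := by
        have h7 : (2 : K) • z = z - (z - (2 * 1 : K) • z - (2 * 0 : K) • y +
          (4 * 0 * 1 : K) • y) := by module
        rw [h7, ← h4, sub_self]
      rcases smul_eq_zero.1 h6 with h7 | h7
      · exact D.h2 h7
      · rw [h7] at hz
        simp [B] at hz
    · exact h1
  · intro h
    rw [← rr_PM D.big hy hy (PM.refl y) h, rr_self D.big hy, map_one]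

end pow

section main

variable {K : Type u} [Field K] [Fintype K] {n : ℕ} {a : Fin n → K}
variable {S : Subgroup (GL (Fin n) K)}
variable {G : Type v} [Group G] {ε : S →* G} {x : G} {τ : S → S}

/-- the map -/
noncomputable def ff (hn : 6 ≤ n) (τ : S → S) (P : Fin n → K) : Fin n → K :=
  open Classical in
  if h : ∃ g : S, PM (ac g.1 (e (ix hn 0))) P then ac (τ h.choose).1 (e (ix hn 0)) else P

lemma exists_g1 (D : Dat a ε x τ) {P : Fin n → K} (hP : B a P P = 1) :
    ∃ g : S, PM (ac g.1 (e (ix D.hn 0))) P := by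
  obtain ⟨g, hg⟩ := exists_g D (by have := D.hn; omega) (on1 hP)
  exact ⟨g, hg 0⟩

lemma exists_g2 (D : Dat a ε x τ) {P Q : Fin n → K} (h : ON a ![P, Q]) : ∃ g : S,
    PM (ac g.1 (e (ix D.hn 0))) P ∧ PM (ac g.1 (e (ix D.hn 1))) Q := by
  obtain ⟨g, hg⟩ := exists_g D (by have := D.hn; omega) h
  exact ⟨g, hg 0, hg 1⟩

lemma ff_spec (hc : StmtConn.{u}) (h5 : 5 < Fintype.card K) (D : Dat a ε x τ) {P : Fin n → K}
    {g : S} {i : Fin n} (hi : i.val + 1 < n) (h : PM (ac g.1 (e i)) P) :
    PM (ac (τ g).1 (e i)) (ff D.hn τ P) := by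
  have hP : B a P P = 1 := by rw [h.B_self, OD_B (D.le g.2), e_self D hi]
  have hex := exists_g1 D hP
  unfold ff
  rw [dif_pos hex]
  exact line_wd hc h5 D hi (ix_lt _ _) (h.trans hex.choose_spec.symm)

omit [Fintype K] in
/-- `τ` is multiplicative up to signs -/
lemma tau_mul (D : Dat a ε x τ) (g h : S) (v : Fin n → K) :
    PM (ac (τ g).1 (ac (τ h).1 v)) (ac (τ (g * h)).1 v) := by
  have h1 : ε (τ (g * h)) = ε (τ g * τ h) := by
    rw [map_mul, ← D.tau, ← D.tau, ← D.tau, map_mul]; group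
  obtain ⟨l, hl⟩ := ker_scalar D h1
  have hm : ∀ v, ac (τ g * τ h).1 v = ac (τ g).1 (ac (τ h).1 v) := fun v => ac_mul _ _ v
  have h2 := hl (e (ix D.hn 0))
  have h3 : B a (ac (τ (g * h)).1 (e (ix D.hn 0))) (ac (τ (g * h)).1 (e (ix D.hn 0))) = 1 := by
    rw [OD_B (D.le (τ (g * h)).2), e_self D (ix_lt _ _)]
  rw [h2, B_smul_left, B_smul_right, OD_B (D.le (τ g * τ h).2), e_self D (ix_lt _ _),
    mul_one] at h3
  have h8 : (l - 1) * (l + 1) = 0 := by linear_combination h3
  rcases mul_eq_zero.1 h8 with h9 | h9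
  · left
    rw [hl v, sub_eq_zero.1 h9, one_smul, hm]
  · right
    rw [hl v, eq_neg_of_add_eq_zero_left h9, neg_smul, one_smul, hm]

omit [Fintype K] in
lemma tau_one (D : Dat a ε x τ) (v : Fin n → K) : PM v (ac (τ 1).1 v) := by
  have h1 : ε (τ 1) = ε 1 := by rw [← D.tau, map_one]; group
  obtain ⟨l, hl⟩ := ker_scalar D h1
  have hm : ∀ v, ac (1 : S).1 v = v := fun v => ac_one v
  have h2 := hl (e (ix D.hn 0))
  have h3 : B a (ac (τ 1).1 (e (ix D.hn 0))) (ac (τ 1).1 (e (ix D.hn 0))) = 1 := by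
    rw [OD_B (D.le (τ 1).2), e_self D (ix_lt _ _)]
  rw [h2, B_smul_left, B_smul_right, hm, e_self D (ix_lt _ _), mul_one] at h3
  have h8 : (l - 1) * (l + 1) = 0 := by linear_combination h3
  rcases mul_eq_zero.1 h8 with h9 | h9
  · left
    rw [hl v, sub_eq_zero.1 h9, one_smul, hm]
  · right
    rw [hl v, eq_neg_of_add_eq_zero_left h9, neg_smul, one_smul, hm]

lemma ff_unit (hc : StmtConn.{u}) (h5 : 5 < Fintype.card K) (D : Dat a ε x τ) {y : Fin n → K}
    (hy : B a y y = 1) : B a (ff D.hn τ y) (ff D.hn τ y) = 1 := by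
  obtain ⟨g, hg⟩ := exists_g1 D hy
  rw [(ff_spec hc h5 D (ix_lt _ _) hg).B_self, OD_B (D.le (τ g).2), e_self D (ix_lt _ _)]

/-- the image of the product of two reflections, orthogonal case -/
lemma conj_orth (hc : StmtConn.{u}) (h5 : 5 < Fintype.card K) (D : Dat a ε x τ) {y z : Fin n → K}
    (hy : B a y y = 1) (hz : B a z z = 1) (hyz : B a y z = 0) :
    x * ε (rr D.big y z) * x⁻¹ = ε (rr D.big (ff D.hn τ y) (ff D.hn τ z)) := by
  obtain ⟨g, h1, h2⟩ := exists_g2 D (on2 hy hz hyz)
  have h3 := ff_spec hc h5 D (ix_lt _ _) h1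
  have h4 := ff_spec hc h5 D (ix_lt _ _) h2
  have hu : ∀ (g : S) {l : Fin n}, l.val + 1 < n → B a (ac g.1 (e l)) (ac g.1 (e l)) = 1 :=
    fun g l hl => by rw [OD_B (D.le g.2), e_self D hl]
  rw [← rr_PM D.big (hu g (ix_lt _ _)) (hu g (ix_lt _ _)) h1 h2,
    ← rr_PM D.big (hu (τ g) (ix_lt _ _)) (hu (τ g) (ix_lt _ _)) h3 h4]
  exact conj_e D g (ix_lt _ _) (ix_lt _ _) (ix_ne _ (by decide))

/-- the image of the product of two reflections -/
lemma conj_rr (hc : StmtConn.{u}) (h5 : 5 < Fintype.card K) (D : Dat a ε x τ) {y z : Fin n → K}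
    (hy : B a y y = 1) (hz : B a z z = 1) :
    x * ε (rr D.big y z) * x⁻¹ = ε (rr D.big (ff D.hn τ y) (ff D.hn τ z)) := by
  let F : (Fin n → K) → Set (Fin n → K) := fun y => {z | B a z z = 1 ∧
    x * ε (rr D.big y z) * x⁻¹ = ε (rr D.big (ff D.hn τ y) (ff D.hn τ z))}
  have step : ∀ y z w : Fin n → K, B a y y = 1 → B a z z = 1 → B a w w = 1 →
      x * ε (rr D.big y z) * x⁻¹ = ε (rr D.big (ff D.hn τ y) (ff D.hn τ z)) →
      x * ε (rr D.big z w) * x⁻¹ = ε (rr D.big (ff D.hn τ z) (ff D.hn τ w)) →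
      x * ε (rr D.big y w) * x⁻¹ = ε (rr D.big (ff D.hn τ y) (ff D.hn τ w)) := by
    intro y z w hy hz hw h1 h2
    rw [← rr_mul D.big hy hz hw, ← rr_mul D.big (ff_unit hc h5 D hy) (ff_unit hc h5 D hz)
      (ff_unit hc h5 D hw), map_mul, map_mul, ← h1, ← h2]
    group
  have hF : F y = F z := by
    refine hc K D.h2 h5 n a D.ha D.ha1 0 (by have := D.hn; omega) Fin.elim0 (fun i => i.elim0) _ F
      ?_ y z hy hz (fun i => i.elim0) (fun i => i.elim0)
    intro y z hy hz _ _ hyz
    ext w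
    constructor
    · rintro ⟨hw, h⟩
      exact ⟨hw, step z y w hz hy hw (conj_orth hc h5 D hz hy (by rw [B_comm]; exact hyz)) h⟩
    · rintro ⟨hw, h⟩
      exact ⟨hw, step y z w hy hz hw (conj_orth hc h5 D hy hz hyz) h⟩
  have hzz : z ∈ F z := by
    refine ⟨hz, ?_⟩
    rw [rr_self D.big hz, rr_self D.big (ff_unit hc h5 D hz), map_one]
    group
  rw [← hF] at hzz
  exact hzz.2

theorem fe_of (hc : StmtConn.{u}) (h5 : 5 < Fintype.card K) (D : Dat a ε x τ) :
    FE a ε x (ff D.hn τ) τ where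
  tau := D.tau
  unit y hy := ff_unit hc h5 D hy
  sgn y z hy h := by
    obtain ⟨g, hg⟩ := exists_g1 D hy
    exact (ff_spec hc h5 D (ix_lt _ _) hg).symm.trans (ff_spec hc h5 D (ix_lt _ _) (hg.trans h))
  equi g y hy := by
    obtain ⟨g0, hg0⟩ := exists_g1 D hy
    have h1 : PM (ac (g * g0).1 (e (ix D.hn 0))) (ac g.1 y) := by
      have h2 := hg0.ac g.1
      rw [← ac_mul] at h2
      exact h2
    have h3 := ff_spec hc h5 D (ix_lt _ _) h1
    have h4 := (ff_spec hc h5 D (ix_lt _ _) hg0).ac (τ g).1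
    exact (h4.symm.trans (tau_mul D g g0 _)).trans h3
  inj y z hy hz h := by
    rw [← rr_one D hy hz]
    have h1 := conj_rr hc h5 D hy hz
    rw [(rr_one D (ff_unit hc h5 D hy) (ff_unit hc h5 D hz)).2 h] at h1
    rw [mul_inv_eq_one] at h1
    exact mul_left_cancel (h1.trans (mul_one x).symm)
  orth y z hy hz := by
    have h1 := conj_rr hc h5 D hy hz
    have h2 : ε (rr D.big (ff D.hn τ y) (ff D.hn τ z)) ^ 2 = 1 ↔ ε (rr D.big y z) ^ 2 = 1 := by
      rw [← h1, conj_pow, mul_inv_eq_one]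
      constructor
      · intro h
        exact mul_left_cancel (h.trans (mul_one x).symm)
      · intro h
        rw [h, mul_one]
    have h3 : ε (rr D.big (ff D.hn τ y) (ff D.hn τ z)) = 1 ↔ ε (rr D.big y z) = 1 := by
      rw [← h1, mul_inv_eq_one]
      constructor
      · intro h
        exact mul_left_cancel (h.trans (mul_one x).symm)
      · intro h
        rw [h, mul_one]
    rw [rr_sq D hy hz, rr_sq D (ff_unit hc h5 D hy) (ff_unit hc h5 D hz)] at h2
    rw [rr_one D hy hz, rr_one D (ff_unit hc h5 D hy) (ff_unit hc h5 D hz)] at h3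
    have key : ∀ {y z : Fin n → K}, B a y y = 1 → B a y z = 0 → ¬ PM y z := by
      rintro y z hy h (rfl | rfl)
      · rw [hy] at h; exact one_ne_zero h
      · rw [B_neg_right, hy, neg_eq_zero] at h; exact one_ne_zero h
    constructor
    · intro h
      rcases h2.1 (Or.inl h) with h4 | h4
      · exact h4
      · exact absurd (h3.2 h4) (key (ff_unit hc h5 D hy) h)
    · intro h
      rcases h2.2 (Or.inl h) with h4 | h4
      · exact h4
      · exact absurd (h3.1 h4) (key hy h)
  one y z hy hz := by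
    obtain ⟨p, hp⟩ := CharP.exists K
    haveI hpf : Fact p.Prime := ⟨CharP.char_is_prime K p⟩
    have hp3 : 3 ≤ p := by
      have h1 := hpf.out.two_le
      rcases Nat.eq_or_lt_of_le h1 with h2 | h2
      · exfalso
        subst h2
        apply D.h2
        exact_mod_cast CharP.cast_eq_zero K 2
      · exact h2
    rw [← rr_pow D hp3 hy hz, ← rr_pow D hp3 (ff_unit hc h5 D hy) (ff_unit hc h5 D hz),
      ← conj_rr hc h5 D hy hz, conj_pow, mul_inv_eq_one]
    constructor
    · intro h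
      exact mul_left_cancel (h.trans (mul_one x).symm)
    · intro h
      rw [h, mul_one]
  base i hi := by
    have h1 : PM (ac (1 : S).1 (e i)) (e i) := by
      left
      exact (ac_one _).symm
    exact (tau_one D (e i)).trans (ff_spec hc h5 D hi h1)

end main

theorem stmtEOF_of (hc : StmtConn.{u}) : StmtEOF.{u, v} := by
  intro K _ _ h2 h5 n hn a ha ha1 S hB hO G _ ε hk x hx hcom
  choose τ hτ using hx
  have D : Dat a ε x τ := ⟨h2, hn, ha, ha1, hB, hO, hk, hτ, hcom⟩
  exact ⟨_, τ, fe_of hc h5 D⟩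

end Vale.Agent.P240.R2.H145.EO
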