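import Vale.Agent.P240.R2.H145.EO5

/-!
Connectedness of the graph of unit vectors of the complement of an orthonormal tuple.
-/

set_option autoImplicit false

namespace Vale.Agent.P240.R2.H145.EO

open Matrix

universe u v

section conn

variable {K : Type u} [Field K] [Fintype K] {n : ℕ} {a : Fin n → K}

/-- a point of the circle off the axes -/
lemma exists_circle (h2 : (2 : K) ≠ 0) (h5 : 5 < Fintype.card K) :
    ∃ s r : K, s ^ 2 + r ^ 2 = 1 ∧ s * r ≠ 0 := by
  obtain ⟨t, ht⟩ : ∃ t : K, (Polynomial.X ^ 5 - Polynomial.X : Polynomial K).eval t ≠ 0 := by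
    apply Polynomial.exists_eval_ne_zero_of_natDegree_lt_card
    · intro h
      have := congrArg (fun p => Polynomial.coeff p 5) h
      simp [Polynomial.coeff_X] at this
    · rw [Cardinal.mk_fintype]
      have : (Polynomial.X ^ 5 - Polynomial.X : Polynomial K).natDegree ≤ 5 := by
        compute_degree
      exact_mod_cast lt_of_le_of_lt this h5
  simp only [Polynomial.eval_sub, Polynomial.eval_pow, Polynomial.eval_X] at ht
  have h1 : t ≠ 0 := by rintro rfl; apply ht; ring
  have h3 : 1 + t ^ 2 ≠ 0 := by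
    intro h; apply ht
    linear_combination (t ^ 3 - t) * h
  have h4 : 1 - t ^ 2 ≠ 0 := by
    intro h; apply ht
    linear_combination (- t ^ 3 - t) * h
  refine ⟨(1 - t ^ 2) / (1 + t ^ 2), (2 * t) / (1 + t ^ 2), ?_, ?_⟩
  · field_simp
    ring
  · exact mul_ne_zero (div_ne_zero h4 h3) (div_ne_zero (mul_ne_zero h2 h1) h3)

/-- two unit vectors with `B(y,z)^2 ≠ 1` have a common orthogonal unit vector -/
lemma exists_common (h2 : (2 : K) ≠ 0) (ha : ∀ i, a i ≠ 0)
    (ha1 : ∀ i : Fin n, i.val + 1 < n → a i = 1) {k : ℕ} (hk : k + 4 ≤ n)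
    {x : Fin k → Fin n → K} (hx : ON a x) {y z : Fin n → K} (hy : B a y y = 1)
    (hz : B a z z = 1) (hxy : ∀ i, B a (x i) y = 0) (hxz : ∀ i, B a (x i) z = 0)
    (hyz : B a y z ^ 2 ≠ 1) : ∃ w : Fin n → K, B a w w = 1 ∧ (∀ i, B a (x i) w = 0) ∧
      B a y w = 0 ∧ B a z w = 0 := by
  set c := B a y z with hc
  have h1 : ∀ i, B a (Fin.snoc (α := fun _ => Fin n → K) x y i) (z - c • y) = 0 := by
    intro i
    refine Fin.lastCases ?_ (fun i => ?_) i
    · rw [Fin.snoc_last, B_sub_right, B_smul_right, hy, ← hc]; ring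
    · rw [Fin.snoc_castSucc, B_sub_right, B_smul_right, hxy, hxz]; ring
  have h3 : B a (z - c • y) (z - c • y) = 1 - c ^ 2 := by
    rw [B_sub_left, B_sub_right, B_sub_right, B_smul_left, B_smul_left, B_smul_right,
      B_smul_right, hy, hz, B_comm z y, ← hc]; ring
  obtain ⟨w, hw, hw2, hww⟩ := perp2 h2 ha ha1 (k := k + 1) (by omega) (hx.snoc hxy hy) h1
    (by rw [h3]; exact sub_ne_zero.2 (Ne.symm hyz)) (one_ne_zero (α := K))
  have h4 : B a y w = 0 := by
    have := hw (Fin.last k)
    rwa [Fin.snoc_last] at this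
  refine ⟨w, hww, fun i => ?_, h4, ?_⟩
  · have := hw i.castSucc
    rwa [Fin.snoc_castSucc] at this
  · rw [B_sub_left, B_smul_left, h4, mul_zero, sub_zero] at hw2
    exact hw2

end conn

theorem stmtConn : StmtConn.{u} := by
  intro K _ _ h2 h5 n a ha ha1 k hk x hx T F hF y z hy hz hxy hxz
  -- the first case
  have case1 : ∀ y z : Fin n → K, B a y y = 1 → B a z z = 1 → (∀ i, B a (x i) y = 0) →
      (∀ i, B a (x i) z = 0) → B a y z ^ 2 ≠ 1 → F y = F z := by
    intro y z hy hz hxy hxz hyz
    obtain ⟨w, hw, hxw, hyw, hzw⟩ := exists_common h2 ha ha1 hk hx hy hz hxy hxz hyz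
    rw [hF y w hy hw hxy hxw hyw, hF z w hz hw hxz hxw hzw]
  by_cases hyz : B a y z ^ 2 = 1
  · -- an intermediate vector
    obtain ⟨D, hD, hxD, hyD, hzD⟩ : ∃ D : Fin n → K, B a D D = 1 ∧ (∀ i, B a (x i) D = 0) ∧
        B a y D = 0 ∧ B a D z ^ 2 ≠ 1 := by
      have hs := hx.snoc hxy hy
      obtain ⟨D1, h1, h11⟩ := perp1 h2 ha ha1 (k := k + 1) (by omega) hs (one_ne_zero (α := K))
      obtain ⟨D2, h3, h33⟩ := perp1 h2 ha ha1 (k := k + 1 + 1) (by omega) (hs.snoc h1 h11)
        (one_ne_zero (α := K))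
      have x1 : ∀ i, B a (x i) D1 = 0 := by
        intro i
        have := h1 i.castSucc
        rwa [Fin.snoc_castSucc] at this
      have y1 : B a y D1 = 0 := by
        have := h1 (Fin.last k)
        rwa [Fin.snoc_last] at this
      have x2 : ∀ i, B a (x i) D2 = 0 := by
        intro i
        have := h3 i.castSucc.castSucc
        rwa [Fin.snoc_castSucc, Fin.snoc_castSucc] at this
      have y2 : B a y D2 = 0 := by
        have := h3 (Fin.last k).castSucc
        rwa [Fin.snoc_castSucc, Fin.snoc_last] at this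
      have d12 : B a D1 D2 = 0 := by
        have := h3 (Fin.last (k + 1))
        rwa [Fin.snoc_last] at this
      by_cases c1 : B a D1 z ^ 2 = 1
      · by_cases c2 : B a D2 z ^ 2 = 1
        · obtain ⟨s, r, hsr, hne⟩ := exists_circle h2 h5
          refine ⟨s • D1 + r • D2, ?_, fun i => ?_, ?_, ?_⟩
          · rw [B_add_left, B_add_right, B_add_right, B_smul_left, B_smul_left, B_smul_left,
              B_smul_left, B_smul_right, B_smul_right, B_smul_right, B_smul_right, h11, h33,
              B_comm D2 D1, d12]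
            linear_combination hsr
          · rw [B_add_right, B_smul_right, B_smul_right, x1, x2]; ring
          · rw [B_add_right, B_smul_right, B_smul_right, y1, y2]; ring
          · rw [B_add_left, B_smul_left, B_smul_left]
            intro h
            have h6 : 2 * (s * r) * (B a D1 z * B a D2 z) = 0 := by
              linear_combination h - hsr - s ^ 2 * c1 - r ^ 2 * c2
            rcases mul_eq_zero.1 h6 with h7 | h7
            · exact mul_ne_zero h2 hne h7
            · rcases mul_eq_zero.1 h7 with h8 | h8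
              · rw [h8] at c1
                exact zero_ne_one (α := K) (by rw [← c1]; ring)
              · rw [h8] at c2
                exact zero_ne_one (α := K) (by rw [← c2]; ring)
        · exact ⟨D2, h33, x2, y2, c2⟩
      · exact ⟨D1, h11, x1, y1, c1⟩
    rw [hF y D hy hD hxy hxD hyD, case1 D z hD hz hxD hxz hzD]
  · exact case1 y z hy hz hxy hxz hyz

/-- **EO-F** -/
theorem stmtEOF : StmtEOF.{u, v} := stmtEOF_of stmtConn

end Vale.Agent.P240.R2.H145.EO
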