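import Vale.Agent.P240.R2.H145.EO6
import Vale.Agent.P240.R2.H472.OWd

/-!
Wigner's theorem (helper472) for the form `diag(a)`.
-/

set_option autoImplicit false

namespace Vale.Agent.P240.R2.H145.EO

open Matrix

universe u v

section wig

variable {K : Type u} [Field K] {m : ℕ} {a : Fin (m + 1) → K}

/-- from `K ^ m × K` to `K ^ (m + 1)` -/
def up (x : (Fin m → K) × K) : Fin (m + 1) → K := Fin.snoc (α := fun _ => K) x.1 x.2

/-- from `K ^ (m + 1)` to `K ^ m × K` -/
def dn (y : Fin (m + 1) → K) : (Fin m → K) × K := (fun i => y i.castSucc, y (Fin.last m))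

omit [Field K] in
lemma up_dn (y : Fin (m + 1) → K) : up (dn y) = y := by
  funext i
  refine Fin.lastCases ?_ (fun i => ?_) i
  · simp [up, dn]
  · simp [up, dn]

omit [Field K] in
lemma dn_up (x : (Fin m → K) × K) : dn (up x) = x := by
  refine Prod.ext ?_ ?_
  · funext i
    simp [up, dn]
  · simp [up, dn]

lemma up_neg (x : (Fin m → K) × K) : up (-x) = -up x := by
  funext i
  refine Fin.lastCases ?_ (fun i => ?_) i
  · simp [up]
  · simp [up]

lemma dn_neg (y : Fin (m + 1) → K) : dn (-y) = -dn y := by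
  rw [← dn_up (-dn y), up_neg, up_dn]

lemma B_up (ha1 : ∀ i : Fin (m + 1), i.val + 1 < m + 1 → a i = 1) (x y : (Fin m → K) × K) :
    B a (up x) (up y) = H472.Bd (a (Fin.last m)) x y := by
  unfold B H472.Bd
  rw [Fin.sum_univ_castSucc]
  have h1 : ∀ i : Fin m, a i.castSucc = 1 := fun i => ha1 _ (by show i.val + 1 < m + 1; omega)
  simp only [up, Fin.snoc_castSucc, Fin.snoc_last, h1, one_mul, dotProduct, mul_assoc]

lemma B_dn (ha1 : ∀ i : Fin (m + 1), i.val + 1 < m + 1 → a i = 1) (x y : Fin (m + 1) → K) :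
    H472.Bd (a (Fin.last m)) (dn x) (dn y) = B a x y := by
  rw [← B_up ha1, up_dn, up_dn]

lemma dn_e (i : Fin m) : dn (e (K := K) i.castSucc) = H472.ei i := by
  refine Prod.ext ?_ ?_
  · funext j
    show (Pi.single i.castSucc 1 : Fin (m + 1) → K) j.castSucc = (Pi.single i 1 : Fin m → K) j
    rw [Pi.single_apply, Pi.single_apply]
    simp [Fin.castSucc_inj]
  · show (Pi.single i.castSucc 1 : Fin (m + 1) → K) (Fin.last m) = 0
    rw [Pi.single_eq_of_ne (Fin.castSucc_lt_last i).ne']

lemma up_ei (i : Fin m) : up (H472.ei i : (Fin m → K) × K) = e i.castSucc := by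
  rw [← dn_e, up_dn]

end wig

/-- Wigner's theorem for the form `diag(a)` -/
theorem wig {K : Type u} [Field K] [Fintype K] {n : ℕ} {a : Fin n → K} (h2 : (2 : K) ≠ 0)
    (h5 : 5 < Fintype.card K) (hn : 6 ≤ n) (ha : ∀ i, a i ≠ 0)
    (ha1 : ∀ i : Fin n, i.val + 1 < n → a i = 1) {f : (Fin n → K) → Fin n → K} {κ : K → K}
    (unit : ∀ y, B a y y = 1 → B a (f y) (f y) = 1)
    (kap : ∀ y z, B a y y = 1 → B a z z = 1 → B a (f y) (f z) ^ 2 = κ (B a y z ^ 2))
    (base : ∀ i : Fin n, i.val + 1 < n → PM (e i) (f (e i)))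
    (inj : ∀ (y : Fin n → K) (i : Fin n), B a y y = 1 → i.val + 1 < n → PM (e i) (f y) →
      PM (e i) y) :
    ∃ (σ : K ≃+* K) (c : Fin n → K), (∀ i, c i ^ 2 * a i = σ (a i)) ∧
      ∀ y, B a y y = 1 → PM (fun i => c i * σ (y i)) (f y) := by
  obtain ⟨m, rfl⟩ : ∃ m, n = m + 1 := ⟨n - 1, by omega⟩
  have hW : H472.WD (a (Fin.last m)) (fun x => dn (f (up x))) κ := by
    refine ⟨fun x hx => ?_, fun x y hx hy => ?_, fun i => ?_, fun x i hx h => ?_⟩
    · rw [B_dn ha1]
      exact unit _ (by rw [B_up ha1, hx])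
    · rw [B_dn ha1, ← B_up ha1]
      exact kap _ _ (by rw [B_up ha1, hx]) (by rw [B_up ha1, hy])
    · have h := base i.castSucc (by show i.val + 1 < m + 1; omega)
      rw [← up_ei] at h
      rcases h with h | h
      · left; rw [h, dn_up]
      · right; rw [h, dn_neg, dn_up]
    · have h1 : PM (e i.castSucc) (f (up x)) := by
        rcases h with h | h
        · left; rw [← up_dn (f (up x)), h, up_ei]
        · right; rw [← up_dn (f (up x)), h, up_neg, up_ei]
      have h3 := inj (up x) i.castSucc (by rw [B_up ha1, hx]) (by show i.val + 1 < m + 1; omega) h1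
      rw [← up_ei] at h3
      rcases h3 with h3 | h3
      · left; rw [← dn_up x, h3, dn_up]
      · right; rw [← dn_up x, h3, dn_neg, dn_up]
  obtain ⟨s, c, c0, hc, hc0, hs⟩ := H472.wigner_d (by omega) h2 h5 (ha _) hW
  refine ⟨s, Fin.snoc (α := fun _ => K) c c0, fun i => ?_, fun y hy => ?_⟩
  · refine Fin.lastCases ?_ (fun i => ?_) i
    · rw [Fin.snoc_last, hc0]
    · rw [Fin.snoc_castSucc, hc, ha1 _ (by show i.val + 1 < m + 1; omega), map_one, mul_one]
  · have h1 := hs (dn y) (by rw [B_dn ha1, hy])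
    simp only [up_dn] at h1
    have h3 : up ((fun i => c i * s ((dn y).1 i), c0 * s (dn y).2) : (Fin m → K) × K) =
        fun i => Fin.snoc (α := fun _ => K) c c0 i * s (y i) := by
      funext i
      refine Fin.lastCases ?_ (fun i => ?_) i
      · simp [up, dn]
      · simp [up, dn]
    rcases h1 with h1 | h1
    · left
      rw [← up_dn (f y), h1, h3]
    · right
      rw [← up_dn (f y), h1, up_neg, h3]

end Vale.Agent.P240.R2.H145.EO
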