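import Vale.Agent.P240.R2.AS.Defs2
import Vale.Agent.P240.R2.H472.Nrm
import Vale.Agent.P240.R2.H487.CG.Defs

/-!
**(I1)** (row of helper487): `PSU_n(q)` for the orthonormal form is `PSU_n(q)` for the antidiagonal
form, `n ≥ 2`, every `q`.
-/

set_option autoImplicit false

namespace Vale.Agent.P240.R2.H145.I1

open Matrix Vale.Agent.P240.R2.AS Vale.Agent.P240.R2.H487.CG

universe u

variable {K : Type u} [Field K] [StarRing K] {n : ℕ}

section scalars

/-- three solutions of `star t * t = -1` -/
lemma exists_three [Fintype K] {q : ℕ} (hK : Nat.card K = q ^ 2) (hs : ∀ x : K, star x = x ^ q) :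
    ∃ a b c : K, a ≠ b ∧ a ≠ c ∧ b ≠ c ∧ star a * a = -1 ∧ star b * b = -1 ∧ star c * c = -1 := by
  classical
  rw [Nat.card_eq_fintype_card] at hK
  have h1 := H472.card_norm hK hs (c := (-1 : K)) (neg_ne_zero.2 one_ne_zero)
    (by rw [star_neg, star_one])
  have hq := H472.one_lt hK
  have h3 : 2 < (Finset.univ.filter (fun x : K => star x * x = -1)).card := by rw [h1]; omega
  obtain ⟨a, b, c, ha, hb, hc, hab, hac, hbc⟩ := Finset.two_lt_card_iff.1 h3
  simp only [Finset.mem_filter, Finset.mem_univ, true_and] at ha hb hc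
  exact ⟨a, b, c, hab, hac, hbc, ha, hb, hc⟩

/-- a nonzero element with `star l = - l` -/
lemma exists_skew {a b c : K} (hab : a ≠ b) (hac : a ≠ c) (hbc : b ≠ c) (ha : star a * a = -1)
    (hb : star b * b = -1) (hc : star c * c = -1) : ∃ l : K, l ≠ 0 ∧ star l = -l := by
  have key : ∀ x : K, star x ≠ x → ∃ l : K, l ≠ 0 ∧ star l = -l := by
    intro x hx
    refine ⟨x - star x, fun h => hx (sub_eq_zero.1 h).symm, ?_⟩
    rw [star_sub, star_star]; ring
  by_cases h1 : star a = a
  · by_cases h2 : star b = b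
    · by_cases h3 : star c = c
      · exfalso
        rw [h1] at ha
        rw [h2] at hb
        rw [h3] at hc
        have e1 : (a - b) * (a + b) = 0 := by linear_combination ha - hb
        have e2 : (a - c) * (a + c) = 0 := by linear_combination ha - hc
        have e3 : a + b = 0 := (mul_eq_zero.1 e1).resolve_left (sub_ne_zero.2 hab)
        have e4 : a + c = 0 := (mul_eq_zero.1 e2).resolve_left (sub_ne_zero.2 hac)
        exact hbc (by linear_combination e3 - e4)
      · exact key c h3
    · exact key b h2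
  · exact key a h1

end scalars

section centre

/-- the transvections -/
def tv (l : K) (v : Fin n → K) : Matrix (Fin n) (Fin n) K := 1 + l • vecMulVec v (star v)

lemma tv_det {l : K} {v : Fin n → K} (hv : star v ⬝ᵥ v = 0) : (tv l v).det = 1 := by
  rw [tv, vecMulVec_eq Unit, ← Matrix.smul_mul]
  have : l • replicateCol Unit v = replicateCol Unit (l • v) := by
    ext i j
    simp
  rw [this, det_one_add_replicateCol_mul_replicateRow, dotProduct_smul, hv]
  simp

lemma tv_mem {l : K} {v : Fin n → K} (hl : star l = -l) (hv : star v ⬝ᵥ v = 0) :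
    tv l v ∈ unitaryGroup (Fin n) K := by
  have h1 : star (vecMulVec v (star v)) = vecMulVec v (star v) := by
    rw [star_eq_conjTranspose, conjTranspose_vecMulVec, star_star]
  have h2 : vecMulVec v (star v) * vecMulVec v (star v) = 0 := by
    rw [vecMulVec_mul_vecMulVec, hv]
    simp
  rw [mem_unitaryGroup_iff, tv, star_add, star_one, star_smul, h1, add_mul, one_mul, mul_add,
    mul_one, smul_mul_smul_comm, h2, smul_zero, add_zero, add_assoc, ← add_smul, hl,
    neg_add_cancel, zero_smul, add_zero]

/-- `e_i + t e_j` -/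
def v2 (i j : Fin n) (t : K) : Fin n → K := Pi.single i 1 + Pi.single j t

lemma v2_dot {i j : Fin n} (hij : i ≠ j) {t : K} (ht : star t * t = -1) :
    star (v2 i j t) ⬝ᵥ v2 i j t = 0 := by
  have h1 : star (v2 i j t) = v2 i j (star t) := by
    funext k
    simp only [v2, Pi.star_apply, Pi.add_apply, star_add, Pi.single_apply]
    split_ifs <;> simp
  rw [h1, v2, v2, add_dotProduct, dotProduct_add, dotProduct_add]
  simp [hij, hij.symm]
  rw [ht]
  ring

omit [StarRing K] in
lemma v2_mulVec (M : Matrix (Fin n) (Fin n) K) (i j r : Fin n) (t : K) :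
    (M *ᵥ v2 i j t) r = M r i + M r j * t := by
  rw [v2, mulVec_add, Pi.add_apply, mulVec_single, mulVec_single]
  simp [Matrix.col_apply]

omit [StarRing K] in
lemma v2_i {i j : Fin n} (hij : i ≠ j) (t : K) : v2 i j t i = 1 := by
  simp [v2, hij]

omit [StarRing K] in
lemma v2_j {i j : Fin n} (hij : i ≠ j) (t : K) : v2 i j t j = t := by
  simp [v2, hij.symm]

/-- isotropic vectors are eigenvectors of a matrix which commutes with the transvections -/
lemma eigen {g : Matrix (Fin n) (Fin n) K} {l : K} (hl0 : l ≠ 0) {v : Fin n → K}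
    (h : g * tv l v = tv l v * g) {k : Fin n} (hk : v k ≠ 0) : ∃ a : K, g *ᵥ v = a • v := by
  rw [tv, mul_add, add_mul, mul_one, one_mul, mul_smul_comm, smul_mul_assoc, mul_vecMulVec,
    vecMulVec_mul] at h
  have h1 := add_left_cancel h
  have h2 : vecMulVec (g *ᵥ v) (star v) = vecMulVec v (star v ᵥ* g) :=
    smul_right_injective _ hl0 h1
  have hk' : star (v k) ≠ 0 := fun h0 => hk (star_eq_zero.1 h0)
  refine ⟨(star (v k))⁻¹ * (star v ᵥ* g) k, ?_⟩
  funext r
  have h3 := congrFun (congrFun h2 r) k
  simp only [vecMulVec_apply, Pi.star_apply] at h3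
  rw [Pi.smul_apply, smul_eq_mul]
  field_simp
  linear_combination h3

/-- a matrix which commutes with the unitary matrices of determinant `1` is scalar -/
lemma scalar_of_comm {a b c l : K} (hab : a ≠ b) (hac : a ≠ c) (hbc : b ≠ c)
    (ha : star a * a = -1) (hb : star b * b = -1) (hc : star c * c = -1) (hl0 : l ≠ 0)
    (hl : star l = -l) (hn : 0 < n) {g : Matrix (Fin n) (Fin n) K}
    (H : ∀ h ∈ unitaryGroup (Fin n) K, h.det = 1 → g * h = h * g) : ∃ z : K, g = z • 1 := by
  have key : ∀ i j : Fin n, i ≠ j → ∀ t : K, star t * t = -1 →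
      g i j * t * t + (g i i - g j j) * t - g j i = 0 := by
    intro i j hij t ht
    obtain ⟨z, hz⟩ := eigen hl0 (H _ (tv_mem hl (v2_dot hij ht)) (tv_det (v2_dot hij ht)))
      (k := i) (by rw [v2_i hij]; exact one_ne_zero)
    have e1 := congrFun hz i
    have e2 := congrFun hz j
    rw [v2_mulVec, Pi.smul_apply, v2_i hij, smul_eq_mul, mul_one] at e1
    rw [v2_mulVec, Pi.smul_apply, v2_j hij, smul_eq_mul] at e2
    linear_combination t * e1 - e2
  have key2 : ∀ i j : Fin n, i ≠ j → g i j = 0 ∧ g i i = g j j := by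
    intro i j hij
    have e1 := key i j hij a ha
    have e2 := key i j hij b hb
    have e3 := key i j hij c hc
    have f1 : (a - b) * (g i j * (a + b) + (g i i - g j j)) = 0 := by
      linear_combination e1 - e2
    have f2 : (a - c) * (g i j * (a + c) + (g i i - g j j)) = 0 := by
      linear_combination e1 - e3
    have f3 := (mul_eq_zero.1 f1).resolve_left (sub_ne_zero.2 hab)
    have f4 := (mul_eq_zero.1 f2).resolve_left (sub_ne_zero.2 hac)
    have f5 : g i j * (b - c) = 0 := by linear_combination f3 - f4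
    have f6 : g i j = 0 := (mul_eq_zero.1 f5).resolve_right (sub_ne_zero.2 hbc)
    refine ⟨f6, ?_⟩
    rw [f6] at f3
    linear_combination f3
  refine ⟨g ⟨0, hn⟩ ⟨0, hn⟩, ?_⟩
  ext i j
  rw [Matrix.smul_apply, smul_eq_mul, Matrix.one_apply]
  by_cases hij : i = j
  · rw [if_pos hij, mul_one, ← hij]
    by_cases h0 : i = ⟨0, hn⟩
    · rw [h0]
    · exact (key2 i ⟨0, hn⟩ h0).2
  · rw [if_neg hij, mul_zero]
    exact (key2 i j hij).1

end centre

section gram

/-- the matrices with two nonzero entries in each row -/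
def PP (n : ℕ) (x y : Fin n → K) : Matrix (Fin n) (Fin n) K :=
  Matrix.of fun i j => if j = i then x i else if j = Fin.rev i then y i else 0

lemma PP_mul {x y : Fin n → K} {c : K}
    (h1 : ∀ j, j ≠ Fin.rev j →
      star (x j) * x j + star (y (Fin.rev j)) * y (Fin.rev j) = 0)
    (h2 : ∀ j, j ≠ Fin.rev j →
      star (x j) * y j + star (y (Fin.rev j)) * x (Fin.rev j) = c * (-1) ^ j.val)
    (h3 : ∀ j, j = Fin.rev j → star (x j) * x j = c * (-1) ^ j.val) :
    star (PP n x y) * PP n x y = c • JJ n K := by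
  ext j k
  rw [Matrix.mul_apply, Matrix.smul_apply]
  simp only [star_apply, PP, JJ, Matrix.of_apply, smul_eq_mul]
  by_cases hj : j = Fin.rev j
  · rw [Finset.sum_eq_single j]
    · rw [if_pos rfl, ← hj]
      by_cases hk : k = j
      · rw [if_pos hk, if_pos hk, h3 j hj]
      · rw [if_neg hk, if_neg hk, if_neg hk, mul_zero, mul_zero]
    · intro i _ hi
      have h4 : j ≠ i := hi.symm
      have h5 : j ≠ Fin.rev i := by
        intro h
        rw [hj] at h
        exact h4 (Fin.rev_injective h)
      rw [if_neg h4, if_neg h5, star_zero, zero_mul]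
    · intro h
      exact absurd (Finset.mem_univ _) h
  · rw [Fintype.sum_eq_add j (Fin.rev j) hj]
    · rw [if_pos rfl, Fin.rev_rev, if_neg hj, if_pos rfl]
      by_cases hk : k = j
      · rw [if_pos hk, if_neg (by rw [hk]; exact hj), if_pos hk, if_neg (by rw [hk]; exact hj), h1 j hj,
          mul_zero]
      · rw [if_neg hk, if_neg hk]
        by_cases hk' : k = Fin.rev j
        · rw [if_pos hk', if_pos hk', if_pos hk', h2 j hj]
        · rw [if_neg hk', if_neg hk', if_neg hk', mul_zero, mul_zero, mul_zero, add_zero]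
    · rintro i ⟨hi, hi'⟩
      have h5 : j ≠ Fin.rev i := by
        intro h
        apply hi'
        rw [h, Fin.rev_rev]
      rw [if_neg (Ne.symm hi), if_neg h5, star_zero, zero_mul]

omit [StarRing K] in
lemma JJ_mul_transpose : JJ n K * (JJ n K)ᵀ = 1 := by
  ext i k
  rw [Matrix.mul_apply, Finset.sum_eq_single (Fin.rev i)]
  · rw [transpose_apply, Matrix.one_apply]
    simp only [JJ, Matrix.of_apply, if_true]
    by_cases h : i = k
    · rw [if_pos h, if_pos (by rw [h]), h, ← pow_add, ← two_mul, pow_mul]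
      simp
    · rw [if_neg h, if_neg (fun h' => h (Fin.rev_injective h')), mul_zero]
  · intro j _ hj
    simp only [JJ, Matrix.of_apply]
    rw [if_neg hj, zero_mul]
  · intro h
    exact absurd (Finset.mem_univ _) h

lemma exists_gram [Fintype K] {q : ℕ} (hK : Nat.card K = q ^ 2) (hs : ∀ x : K, star x = x ^ q)
    (n : ℕ) : ∃ (c : K) (P Q : Matrix (Fin n) (Fin n) K), c ≠ 0 ∧ star P * P = c • JJ n K ∧
      P * Q = 1 ∧ Q * P = 1 := by
  obtain ⟨t, s, r, hts, htr, hsr, ht, hss, hr⟩ := exists_three hK hs
  obtain ⟨l, hl0, hl⟩ := exists_skew hts htr hsr ht hss hr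
  have hne : (1 + star t * s : K) ≠ 0 := by
    intro h
    have ht0 : star t ≠ 0 := by
      intro h0
      rw [h0, zero_mul] at ht
      exact one_ne_zero (α := K) (by linear_combination ht)
    have e : star t * (s - t) = 0 := by linear_combination h - ht
    exact hts ((sub_eq_zero.1 ((mul_eq_zero.1 e).resolve_left ht0)).symm)
  obtain ⟨c, hc0, hc, p, hp⟩ : ∃ c : K, c ≠ 0 ∧ star c = (-1) ^ (n - 1) * c ∧ ∃ p : K,
      Odd n → star p * p = c * (-1) ^ ((n - 1) / 2) := by
    rcases Nat.even_or_odd n with hn | hn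
    · by_cases h0 : n = 0
      · refine ⟨1, one_ne_zero, ?_, 0, fun h => absurd hn (Nat.not_even_iff_odd.2 h)⟩
        rw [h0, star_one]; simp
      · refine ⟨l, hl0, ?_, 0, fun h => absurd hn (Nat.not_even_iff_odd.2 h)⟩
        have : Odd (n - 1) := by
          rw [Nat.odd_iff]
          rw [Nat.even_iff] at hn
          omega
        rw [this.neg_one_pow, hl]; ring
    · have he : Even (n - 1) := by
        rw [Nat.even_iff]
        rw [Nat.odd_iff] at hn
        omega
      have hK' : Fintype.card K = q ^ 2 := by rw [← Nat.card_eq_fintype_card]; exact hK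
      obtain ⟨p, hp⟩ := H472.exists_norm hK' hs (c := (1 : K) * (-1) ^ ((n - 1) / 2))
        (mul_ne_zero one_ne_zero (pow_ne_zero _ (neg_ne_zero.2 one_ne_zero)))
        (by rw [star_mul, star_pow, star_neg, star_one]; ring)
      exact ⟨1, one_ne_zero, by rw [star_one, he.neg_one_pow]; ring, p, fun _ => hp⟩
  -- the matrix
  let al : Fin n → K := fun i => c * (-1) ^ i.val / (1 + star t * s)
  let x : Fin n → K := fun i => if i < Fin.rev i then 1 else if i = Fin.rev i then p
    else al (Fin.rev i) * s
  let y : Fin n → K := fun i => if i < Fin.rev i then al i else t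
  have hal : ∀ i, al i * (1 + star t * s) = c * (-1) ^ i.val := fun i => div_mul_cancel₀ _ hne
  have hrev : ∀ j : Fin n, star (c * (-1) ^ (Fin.rev j).val) = c * (-1) ^ j.val := by
    intro j
    rw [star_mul, star_pow, star_neg, star_one, hc, Fin.val_rev]
    have h1 : (-1 : K) ^ (n - (j.val + 1)) * (-1) ^ (n - 1) = (-1) ^ j.val := by
      have h2 : n - 1 = (n - (j.val + 1)) + j.val := by have := j.2; omega
      rw [h2, pow_add, ← mul_assoc, ← pow_add, ← two_mul, pow_mul]
      simp
    linear_combination c * h1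
  have hPP : star (PP n x y) * PP n x y = c • JJ n K := by
    apply PP_mul
    · intro j hj
      rcases lt_or_gt_of_ne hj with h | h
      · have e1 : x j = 1 := if_pos h
        have e2 : y (Fin.rev j) = t := by
          show (if Fin.rev j < Fin.rev (Fin.rev j) then al (Fin.rev j) else t) = t
          rw [Fin.rev_rev, if_neg (not_lt.2 h.le)]
        rw [e1, e2, ht, star_one]; ring
      · have e1 : x j = al (Fin.rev j) * s := by
          show (if j < Fin.rev j then 1 else if j = Fin.rev j then p else al (Fin.rev j) * s) = _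
          rw [if_neg (not_lt.2 h.le), if_neg hj]
        have e2 : y (Fin.rev j) = al (Fin.rev j) := by
          show (if Fin.rev j < Fin.rev (Fin.rev j) then al (Fin.rev j) else t) = _
          rw [Fin.rev_rev, if_pos h]
        rw [e1, e2, star_mul]
        linear_combination star (al (Fin.rev j)) * al (Fin.rev j) * hss
    · intro j hj
      rcases lt_or_gt_of_ne hj with h | h
      · have e1 : x j = 1 := if_pos h
        have e2 : y (Fin.rev j) = t := by
          show (if Fin.rev j < Fin.rev (Fin.rev j) then al (Fin.rev j) else t) = t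
          rw [Fin.rev_rev, if_neg (not_lt.2 h.le)]
        have e3 : y j = al j := if_pos h
        have e4 : x (Fin.rev j) = al j * s := by
          show (if Fin.rev j < Fin.rev (Fin.rev j) then 1 else if Fin.rev j = Fin.rev (Fin.rev j)
            then p else al (Fin.rev (Fin.rev j)) * s) = _
          rw [Fin.rev_rev, if_neg (not_lt.2 h.le), if_neg (Ne.symm hj)]
        rw [e1, e2, e3, e4, star_one]
        linear_combination hal j
      · have e1 : x j = al (Fin.rev j) * s := by
          show (if j < Fin.rev j then 1 else if j = Fin.rev j then p else al (Fin.rev j) * s) = _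
          rw [if_neg (not_lt.2 h.le), if_neg hj]
        have e2 : y (Fin.rev j) = al (Fin.rev j) := by
          show (if Fin.rev j < Fin.rev (Fin.rev j) then al (Fin.rev j) else t) = _
          rw [Fin.rev_rev, if_pos h]
        have e3 : y j = t := by
          show (if j < Fin.rev j then al j else t) = t
          rw [if_neg (not_lt.2 h.le)]
        have e4 : x (Fin.rev j) = 1 := by
          show (if Fin.rev j < Fin.rev (Fin.rev j) then 1 else if Fin.rev j = Fin.rev (Fin.rev j)
            then p else al (Fin.rev (Fin.rev j)) * s) = _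
          rw [Fin.rev_rev, if_pos h]
        rw [e1, e2, e3, e4, star_mul, ← hrev j, ← hal (Fin.rev j), star_mul, star_add, star_mul,
          star_star, star_one]
        ring
    · intro j hj
      have e1 : x j = p := by
        show (if j < Fin.rev j then 1 else if j = Fin.rev j then p else al (Fin.rev j) * s) = _
        rw [if_neg (by rw [← hj]; exact lt_irrefl _), if_pos hj]
      have e2 := congrArg Fin.val hj
      rw [Fin.val_rev] at e2
      have h4 := j.2
      have h5 : n = 2 * j.val + 1 := by omega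
      rw [e1, hp ⟨j.val, h5⟩]
      congr 2
      omega
  -- the inverse
  have hinv : (c⁻¹ • (JJ n K)ᵀ) * star (PP n x y) * PP n x y = 1 := by
    rw [mul_assoc, hPP, smul_mul_smul_comm, inv_mul_cancel₀ hc0, one_smul]
    exact mul_eq_one_comm.1 JJ_mul_transpose
  exact ⟨c, PP n x y, _, hc0, hPP, mul_eq_one_comm.1 hinv, hinv⟩

end gram

section iso

variable {P Q : Matrix (Fin n) (Fin n) K} {c : K} {σ : K ≃+* K}

lemma map_eq_star (hσ : ∀ x, σ x = star x) (A : Matrix (Fin n) (Fin n) K) :
    (A.map σ)ᵀ = star A := by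
  ext i j
  rw [transpose_apply, Matrix.map_apply, star_apply, hσ]

/-- the map into the unitary group -/
def toGU (hP : star P * P = c • JJ n K) (hPQ : P * Q = 1) (hQP : Q * P = 1)
    (hσ : ∀ x, σ x = star x) : ↥(GJ n σ) →* GU K n where
  toFun A := ⟨P * A.1.1 * Q, by
    have hA : (A.1.1.map σ)ᵀ * JJ n K * A.1.1 = JJ n K := A.2
    rw [map_eq_star hσ] at hA
    rw [mem_unitaryGroup_iff', star_mul, star_mul]
    calc star Q * (star A.1.1 * star P) * (P * A.1.1 * Q)
        = star Q * (star A.1.1 * (star P * P) * A.1.1) * Q := by simp only [mul_assoc]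
      _ = star Q * (star P * P) * Q := by
        rw [hP, mul_smul_comm, smul_mul_assoc, hA]
      _ = star (P * Q) * (P * Q) := by rw [star_mul]; simp only [mul_assoc]
      _ = 1 := by rw [hPQ, star_one, mul_one]⟩
  map_one' := by
    apply Subtype.ext
    show P * 1 * Q = 1
    rw [mul_one, hPQ]
  map_mul' A B := by
    apply Subtype.ext
    show P * (A.1.1 * B.1.1) * Q = P * A.1.1 * Q * (P * B.1.1 * Q)
    calc P * (A.1.1 * B.1.1) * Q = P * A.1.1 * (Q * P) * B.1.1 * Q := by
          rw [hQP, mul_one]; simp only [mul_assoc]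
      _ = _ := by simp only [mul_assoc]

lemma toGU_inj (hP : star P * P = c • JJ n K) (hPQ : P * Q = 1) (hQP : Q * P = 1)
    (hσ : ∀ x, σ x = star x) : Function.Injective (toGU hP hPQ hQP hσ) := by
  intro A B h
  apply Subtype.ext
  apply Subtype.ext
  have h1 : P * A.1.1 * Q = P * B.1.1 * Q := congrArg Subtype.val h
  calc A.1.1 = Q * P * A.1.1 * (Q * P) := by rw [hQP, one_mul, mul_one]
    _ = Q * (P * A.1.1 * Q) * P := by simp only [mul_assoc]
    _ = Q * (P * B.1.1 * Q) * P := by rw [h1]
    _ = Q * P * B.1.1 * (Q * P) := by simp only [mul_assoc]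
    _ = B.1.1 := by rw [hQP, one_mul, mul_one]

lemma toGU_surj (hc : c ≠ 0) (hP : star P * P = c • JJ n K) (hPQ : P * Q = 1) (hQP : Q * P = 1)
    (hσ : ∀ x, σ x = star x) {h : Matrix (Fin n) (Fin n) K} (hh : h ∈ unitaryGroup (Fin n) K)
    (hd : h.det = 1) : ∃ A : ↥(GJ n σ), (toGU hP hPQ hQP hσ A).1 = h := by
  have hdet : (Q * h * P).det = 1 := by
    rw [det_mul, det_mul, hd, mul_one, ← det_mul, hQP, det_one]
  have hmem : (⟨Q * h * P, hdet⟩ : SpecialLinearGroup (Fin n) K) ∈ GJ n σ := by
    show ((Q * h * P).map σ)ᵀ * JJ n K * (Q * h * P) = JJ n K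
    rw [map_eq_star hσ]
    have h1 : P * (Q * h * P) = h * P := by
      rw [← mul_assoc, ← mul_assoc, hPQ, one_mul]
    have h2 : c • (star (Q * h * P) * JJ n K * (Q * h * P)) = c • JJ n K := by
      calc c • (star (Q * h * P) * JJ n K * (Q * h * P))
          = star (Q * h * P) * (c • JJ n K) * (Q * h * P) := by
            rw [mul_smul_comm, smul_mul_assoc]
        _ = star (P * (Q * h * P)) * (P * (Q * h * P)) := by
            rw [← hP, star_mul P]; simp only [mul_assoc]
        _ = star P * (star h * h) * P := by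
            rw [h1, star_mul]; simp only [mul_assoc]
        _ = c • JJ n K := by rw [mem_unitaryGroup_iff'.1 hh, mul_one, hP]
    exact smul_right_injective _ hc h2
  refine ⟨⟨⟨Q * h * P, hdet⟩, hmem⟩, ?_⟩
  show P * (Q * h * P) * Q = h
  calc P * (Q * h * P) * Q = P * Q * h * (P * Q) := by simp only [mul_assoc]
    _ = h := by rw [hPQ, one_mul, mul_one]

end iso

/-- **(I1)** -/
theorem psu_iso [Fintype K] {q : ℕ} (hK : Nat.card K = q ^ 2) (hs : ∀ x : K, star x = x ^ q)
    (hn : 2 ≤ n) (σ : K ≃+* K) (hσ : ∀ x, σ x = star x) :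
    Nonempty (↥(PSU K n) ≃* PGJ n σ) := by
  obtain ⟨c, P, Q, hc, hP, hPQ, hQP⟩ := exists_gram hK hs n
  obtain ⟨t1, t2, t3, h12, h13, h23, ht1, ht2, ht3⟩ := exists_three hK hs
  obtain ⟨l, hl0, hl⟩ := exists_skew h12 h13 h23 ht1 ht2 ht3
  set τ := toGU hP hPQ hQP hσ with hτ
  let f : ↥(GJ n σ) →* PGU K n := (QuotientGroup.mk' (Subgroup.center (GU K n))).comp τ
  have hker : f.ker = Subgroup.center ↥(GJ n σ) := by
    ext A
    rw [MonoidHom.mem_ker]
    have e1 : f A = 1 ↔ τ A ∈ Subgroup.center (GU K n) := QuotientGroup.eq_one_iff _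
    rw [e1, Subgroup.mem_center_iff, Subgroup.mem_center_iff]
    constructor
    · intro h B
      apply toGU_inj hP hPQ hQP hσ
      rw [map_mul, map_mul]
      exact h _
    · intro h
      obtain ⟨z, hz⟩ : ∃ z : K, (τ A).1 = z • 1 := by
        apply scalar_of_comm h12 h13 h23 ht1 ht2 ht3 hl0 hl (by omega)
        intro g hg hd
        obtain ⟨B, hB⟩ := toGU_surj hc hP hPQ hQP hσ hg hd
        have h1 := congrArg (fun X => (τ X).1) (h B)
        simp only [map_mul] at h1
        have h2 : (τ B).1 * (τ A).1 = (τ A).1 * (τ B).1 := h1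
        rw [← hτ] at hB
        rw [hB] at h2
        exact h2.symm
      intro g
      apply Subtype.ext
      show g.1 * (τ A).1 = (τ A).1 * g.1
      rw [hz, mul_smul_comm, smul_mul_assoc, mul_one, one_mul]
  have hran : f.range = PSU K n := by
    ext x
    constructor
    · rintro ⟨A, rfl⟩
      refine ⟨τ A, ?_, rfl⟩
      show (P * A.1.1 * Q).det = 1
      rw [det_mul, det_mul, A.1.2, mul_one, ← det_mul, hPQ, det_one]
    · rintro ⟨g, hg, rfl⟩
      obtain ⟨A, hA⟩ := toGU_surj hc hP hPQ hQP hσ g.2 hg
      exact ⟨A, congrArg _ (Subtype.ext hA)⟩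
  exact ⟨((QuotientGroup.quotientMulEquivOfEq hker.symm).trans
    ((QuotientGroup.quotientKerEquivRange f).trans (MulEquiv.subgroupCongr hran))).symm⟩

/-- (I1), with the automorphism `starRingAut` -/
theorem psu_iso' [Fintype K] {q : ℕ} (hK : Nat.card K = q ^ 2) (hs : ∀ x : K, star x = x ^ q)
    (hn : 2 ≤ n) : Nonempty (↥(PSU K n) ≃* PGJ n (starRingAut : K ≃+* K)) :=
  psu_iso hK hs hn _ (fun _ => rfl)

end Vale.Agent.P240.R2.H145.I1
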